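import Vale.Agent.Lib.P063.Cube

/-!
The Bonami lemma for biased coordinates.
-/

open Finset

set_option linter.unusedSectionVars false
set_option linter.unusedSimpArgs false
set_option linter.unusedVariables false
set_option linter.deprecated false

namespace Vale.Agent.Lib.P063

variable {ι : Type*} [Fintype ι] [DecidableEq ι]

lemma ex_coord (p : ℝ) (i : ι) (h : Bool → ℝ) :
    ex p (fun y : ι → Bool => h (y i)) = p * h true + (1 - p) * h false := by
  have h1 := ex_prod p (fun (j : ι) (b : Bool) => if j = i then h b else 1)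
  have h2 : ∀ y : ι → Bool, (∏ j, if j = i then h (y j) else 1) = h (y i) := by
    intro y
    rw [Finset.prod_ite_eq' univ i (fun j => h (y j))]
    simp
  simp_rw [h2] at h1
  rw [h1]
  have h3 : ∀ j : ι, p * (if j = i then h true else 1) + (1 - p) * (if j = i then h false else 1)
      = if j = i then p * h true + (1 - p) * h false else 1 := by
    intro j
    split_ifs <;> ring
  simp_rw [h3]
  rw [Finset.prod_ite_eq' univ i (fun _ => p * h true + (1 - p) * h false)]
  simp

lemma mix_singleton (i : ι) (y x : ι → Bool) : mix {i} y x = Function.update x i (y i) := by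
  funext j
  by_cases h : j = i
  · subst h
    simp [mix]
  · simp [mix, h, Function.update_of_ne h]

lemma ex_update (p : ℝ) (i : ι) (H : (ι → Bool) → ℝ) :
    ex p H = ex p (fun x => p * H (Function.update x i true)
      + (1 - p) * H (Function.update x i false)) := by
  rw [← ex_avg p {i} H]
  refine ex_congr p fun x => ?_
  simp_rw [mix_singleton]
  exact ex_coord p i (fun b => H (Function.update x i b))

/-- A polynomial with monomials from the subsets of `A`. -/
noncomputable def polyOn (p : ℝ) (A : Finset ι) (a : Finset ι → ℝ) (x : ι → Bool) : ℝ :=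
  ∑ Q ∈ A.powerset, a Q * chi p Q x

lemma polyOn_insert (p : ℝ) {A : Finset ι} {i : ι} (hi : i ∉ A) (a : Finset ι → ℝ)
    (x : ι → Bool) :
    polyOn p (insert i A) a x =
      phi p (x i) * polyOn p A (fun Q => a (insert i Q)) x + polyOn p A a x := by
  unfold polyOn
  rw [Finset.sum_powerset_insert hi, add_comm, Finset.mul_sum]
  congr 1
  refine sum_congr rfl fun Q hQ => ?_
  have hiQ : i ∉ Q := fun h => hi (Finset.mem_powerset.mp hQ h)
  unfold chi
  rw [Finset.prod_insert hiQ]
  ring

lemma chi_update (p : ℝ) {Q : Finset ι} {i : ι} (hi : i ∉ Q) (x : ι → Bool) (b : Bool) :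
    chi p Q (Function.update x i b) = chi p Q x := by
  unfold chi
  refine prod_congr rfl fun j hj => ?_
  have : j ≠ i := fun h => hi (h ▸ hj)
  rw [Function.update_of_ne this]

lemma polyOn_update (p : ℝ) {A : Finset ι} {i : ι} (hi : i ∉ A) (a : Finset ι → ℝ)
    (x : ι → Bool) (b : Bool) :
    polyOn p A a (Function.update x i b) = polyOn p A a x := by
  unfold polyOn
  refine sum_congr rfl fun Q hQ => ?_
  rw [chi_update p (fun h => hi (Finset.mem_powerset.mp hQ h))]

/-- The constant in the Bonami lemma. -/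
noncomputable def bC (p : ℝ) : ℝ := 7 / (p * (1 - p))

lemma bC_ge {p : ℝ} (hp : 0 < p) (hp1 : p < 1) : 28 ≤ bC p := by
  unfold bC
  have h : 0 < p * (1 - p) := mul_pos hp (by linarith)
  rw [le_div_iff₀ h]
  nlinarith [sq_nonneg (p - 1 / 2)]

lemma phi_m4 {p : ℝ} (hp : 0 < p) (hp1 : p < 1) :
    2 * (p * phi p true ^ 4 + (1 - p) * phi p false ^ 4) ≤ bC p := by
  have hs := sqrt_pos_aux hp hp1
  have hs2 := sqrt_sq_aux hp hp1
  have hq : 0 < 1 - p := by linarith
  have h1 : phi p true ^ 2 = (1 - p) / p := by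
    simp only [phi, if_true]
    rw [div_pow, hs2]
    field_simp
  have h2 : phi p false ^ 2 = p / (1 - p) := by
    simp only [phi, Bool.false_eq_true, if_false]
    rw [div_pow, hs2]
    field_simp
  have h3 : phi p true ^ 4 = ((1 - p) / p) ^ 2 := by rw [← h1]; ring
  have h4 : phi p false ^ 4 = (p / (1 - p)) ^ 2 := by rw [← h2]; ring
  rw [h3, h4]
  unfold bC
  have h5 : 0 < p * (1 - p) := mul_pos hp hq
  have h6 : 2 * (p * ((1 - p) / p) ^ 2 + (1 - p) * (p / (1 - p)) ^ 2)
      = 2 * ((1 - p) ^ 3 + p ^ 3) / (p * (1 - p)) := by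
    field_simp
  rw [h6]
  apply div_le_div_of_nonneg_right _ h5.le
  nlinarith [mul_pos hp hq, sq_nonneg p, sq_nonneg (1 - p), mul_pos (mul_pos hp hp) hq,
    mul_pos (mul_pos hq hq) hp]

lemma scalar4 {p : ℝ} (hp : 0 < p) (hp1 : p < 1) (g h : ℝ) :
    p * (phi p true * g + h) ^ 4 + (1 - p) * (phi p false * g + h) ^ 4
      ≤ bC p * g ^ 4 + 10 * (g ^ 2 * h ^ 2) + h ^ 4 := by
  have hm := phi_mean hp hp1
  have hv := phi_var hp hp1
  have h4 := phi_m4 hp hp1
  set a := phi p true
  set b := phi p false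
  have hq : 0 < 1 - p := by linarith
  set m3 := p * a ^ 3 + (1 - p) * b ^ 3 with hm3
  set m4 := p * a ^ 4 + (1 - p) * b ^ 4 with hm4
  have e1 : p * (a * g + h) ^ 4 + (1 - p) * (b * g + h) ^ 4
      = m4 * g ^ 4 + 4 * m3 * (g ^ 3 * h)
        + 6 * (p * a ^ 2 + (1 - p) * b ^ 2) * (g ^ 2 * h ^ 2)
        + 4 * (p * a + (1 - p) * b) * (g * h ^ 3) + h ^ 4 := by
    rw [hm3, hm4]
    have : (1 - p) + p = 1 := by ring
    ring
  rw [e1, hm, hv]
  have e2 : m3 ^ 2 ≤ m4 := by
    have e3 : (p * a ^ 2 + (1 - p) * b ^ 2) * m4 - m3 ^ 2 = p * (1 - p) * (a * b * (a - b)) ^ 2 := by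
      rw [hm3, hm4]
      ring
    rw [hv, one_mul] at e3
    have e4 : 0 ≤ p * (1 - p) * (a * b * (a - b)) ^ 2 :=
      mul_nonneg (mul_pos hp hq).le (sq_nonneg _)
    linarith
  have e5 : 4 * m3 * (g ^ 3 * h) ≤ m3 ^ 2 * g ^ 4 + 4 * (g ^ 2 * h ^ 2) := by
    nlinarith [sq_nonneg (m3 * g ^ 2 - 2 * (g * h))]
  have e6 : m3 ^ 2 * g ^ 4 ≤ m4 * g ^ 4 :=
    mul_le_mul_of_nonneg_right e2 (by positivity)
  have e7 : 2 * m4 * g ^ 4 ≤ bC p * g ^ 4 :=
    mul_le_mul_of_nonneg_right h4 (by positivity)
  nlinarith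

lemma scalar2 {p : ℝ} (hp : 0 < p) (hp1 : p < 1) (g h : ℝ) :
    p * (phi p true * g + h) ^ 2 + (1 - p) * (phi p false * g + h) ^ 2 = g ^ 2 + h ^ 2 := by
  have hm := phi_mean hp hp1
  have hv := phi_var hp hp1
  have e : p * (phi p true * g + h) ^ 2 + (1 - p) * (phi p false * g + h) ^ 2
      = (p * phi p true ^ 2 + (1 - p) * phi p false ^ 2) * g ^ 2
        + 2 * (p * phi p true + (1 - p) * phi p false) * (g * h) + h ^ 2 := by
    ring
  rw [e, hm, hv]
  ring

/-- The Bonami lemma. -/
theorem bonami {p : ℝ} (hp : 0 < p) (hp1 : p < 1) (A : Finset ι) :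
    ∀ (d : ℕ) (a : Finset ι → ℝ), (∀ Q, Q ⊆ A → d < Q.card → a Q = 0) →
      ex p (fun x => polyOn p A a x ^ 4) ≤ bC p ^ d * (ex p (fun x => polyOn p A a x ^ 2)) ^ 2 := by
  have hpl : 0 ≤ p := hp.le
  have hpu : p ≤ 1 := hp1.le
  have hC := bC_ge hp hp1
  induction A using Finset.induction_on with
  | empty =>
    intro d a _
    have h0 : ∀ x : ι → Bool, polyOn p ∅ a x = a ∅ := by
      intro x
      simp [polyOn, chi_empty]
    simp_rw [h0]
    rw [ex_const, ex_const]
    have h1 : (1 : ℝ) ≤ bC p ^ d := one_le_pow₀ (by linarith)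
    nlinarith [sq_nonneg ((a ∅) ^ 2), mul_nonneg (sub_nonneg.mpr h1) (sq_nonneg ((a ∅) ^ 2))]
  | insert i A hi ih =>
    intro d a ha
    cases d with
    | zero =>
      have h0 : ∀ x : ι → Bool, polyOn p (insert i A) a x = polyOn p A a x := by
        intro x
        rw [polyOn_insert p hi]
        have : polyOn p A (fun Q => a (insert i Q)) x = 0 := by
          unfold polyOn
          refine sum_eq_zero fun Q hQ => ?_
          have hiQ : i ∉ Q := fun h => hi (Finset.mem_powerset.mp hQ h)
          have h00 := ha (insert i Q) (Finset.insert_subset_insert i (Finset.mem_powerset.mp hQ))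
            (by rw [Finset.card_insert_of_notMem hiQ]; omega)
          simp only [h00, zero_mul]
        rw [this]
        ring
      simp_rw [h0]
      exact ih 0 a (fun Q hQ h => ha Q (hQ.trans (Finset.subset_insert i A)) h)
    | succ d =>
      set g : (ι → Bool) → ℝ := polyOn p A (fun Q => a (insert i Q)) with hg
      set h : (ι → Bool) → ℝ := polyOn p A a with hh
      have hgu : ∀ x b, g (Function.update x i b) = g x := fun x b => polyOn_update p hi _ x b
      have hhu : ∀ x b, h (Function.update x i b) = h x := fun x b => polyOn_update p hi _ x b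
      have hphi : ∀ x : ι → Bool, polyOn p (insert i A) a x = phi p (x i) * g x + h x :=
        fun x => polyOn_insert p hi a x
      have ihg := ih d (fun Q => a (insert i Q)) (by
        intro Q hQ hlt
        have hiQ : i ∉ Q := fun h => hi (hQ h)
        exact ha (insert i Q) (Finset.insert_subset_insert i hQ)
          (by rw [Finset.card_insert_of_notMem hiQ]; omega))
      have ihh := ih (d + 1) a (fun Q hQ hlt => ha Q (hQ.trans (Finset.subset_insert i A)) hlt)
      -- the fourth moment
      have h4 : ex p (fun x => polyOn p (insert i A) a x ^ 4)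
          ≤ ex p (fun x => bC p * g x ^ 4 + 10 * (g x ^ 2 * h x ^ 2) + h x ^ 4) := by
        rw [ex_update p i]
        refine ex_le hpl hpu fun x => ?_
        simp only [hphi, Function.update_self, hgu, hhu]
        exact scalar4 hp hp1 (g x) (h x)
      have h2 : ex p (fun x => polyOn p (insert i A) a x ^ 2)
          = ex p (fun x => g x ^ 2) + ex p (fun x => h x ^ 2) := by
        rw [ex_update p i, ← ex_add]
        refine ex_congr p fun x => ?_
        simp only [hphi, Function.update_self, hgu, hhu]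
        exact scalar2 hp hp1 (g x) (h x)
      have h4' : ex p (fun x => bC p * g x ^ 4 + 10 * (g x ^ 2 * h x ^ 2) + h x ^ 4)
          = bC p * ex p (fun x => g x ^ 4) + 10 * ex p (fun x => g x ^ 2 * h x ^ 2)
            + ex p (fun x => h x ^ 4) := by
        rw [ex_add, ex_add, ex_mul_left, ex_mul_left]
      rw [h4'] at h4
      have hcs := ex_cs hpl hpu (fun x => g x ^ 2) (fun x => h x ^ 2)
      have hcs1 : ex p (fun x => (g x ^ 2) ^ 2) = ex p (fun x => g x ^ 4) :=
        ex_congr p fun x => by ring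
      have hcs2 : ex p (fun x => (h x ^ 2) ^ 2) = ex p (fun x => h x ^ 4) :=
        ex_congr p fun x => by ring
      rw [hcs1, hcs2] at hcs
      set G := ex p (fun x => g x ^ 2) with hG
      set H := ex p (fun x => h x ^ 2) with hH
      set P := ex p (fun x => g x ^ 4) with hP
      set R := ex p (fun x => h x ^ 4) with hR
      set M := ex p (fun x => g x ^ 2 * h x ^ 2) with hM
      have hG0 : 0 ≤ G := ex_nonneg hpl hpu fun x => sq_nonneg _
      have hH0 : 0 ≤ H := ex_nonneg hpl hpu fun x => sq_nonneg _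
      have hP0 : 0 ≤ P := ex_nonneg hpl hpu fun x => by positivity
      have hR0 : 0 ≤ R := ex_nonneg hpl hpu fun x => by positivity
      have hM0 : 0 ≤ M := ex_nonneg hpl hpu fun x => by positivity
      set D := bC p ^ d with hD
      have hD0 : 0 < D := pow_pos (by linarith) d
      have hC0 : 0 < bC p := by linarith
      have hsucc : bC p ^ (d + 1) = D * bC p := pow_succ _ _
      rw [hsucc] at ihh ⊢
      rw [h2]
      have hM2 : M ^ 2 ≤ (D * G ^ 2) * (D * bC p * H ^ 2) :=
        hcs.trans (mul_le_mul ihg ihh hR0 (by positivity))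
      have h5M : 5 * M ≤ D * bC p * (G * H) := by
        have : (5 * M) ^ 2 ≤ (D * bC p * (G * H)) ^ 2 := by
          have e1 : (D * bC p * (G * H)) ^ 2 = bC p * ((D * G ^ 2) * (D * bC p * H ^ 2)) := by ring
          rw [e1]
          have e2 : (5 * M) ^ 2 = 25 * M ^ 2 := by ring
          rw [e2]
          have e3 : 25 * M ^ 2 ≤ bC p * M ^ 2 :=
            mul_le_mul_of_nonneg_right (by linarith) (sq_nonneg _)
          exact e3.trans (mul_le_mul_of_nonneg_left hM2 hC0.le)
        exact (pow_le_pow_iff_left₀ (by positivity) (by positivity) (by norm_num)).mp this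
      have e6 : bC p * P ≤ bC p * (D * G ^ 2) := mul_le_mul_of_nonneg_left ihg hC0.le
      calc ex p (fun x => polyOn p (insert i A) a x ^ 4)
          ≤ bC p * P + 10 * M + R := h4
        _ ≤ bC p * (D * G ^ 2) + 2 * (D * bC p * (G * H)) + D * bC p * H ^ 2 := by linarith
        _ = D * bC p * (G + H) ^ 2 := by ring

end Vale.Agent.Lib.P063
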