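import Mathlib

/-!
Biased analysis on the discrete cube: expectation, coordinate mixing, biased characters,
Plancherel and the coefficient formula for averages over a block of coordinates.
-/

open Finset

set_option linter.unusedSectionVars false
set_option linter.unusedSimpArgs false
set_option linter.unusedVariables false
set_option linter.deprecated false

namespace Vale.Agent.Lib.P063

variable {ι : Type*} [Fintype ι] [DecidableEq ι]

/-- The weight of one coordinate. -/
noncomputable def w1 (p : ℝ) (b : Bool) : ℝ := if b then p else 1 - p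

/-- The product weight of a point. -/
noncomputable def wt (p : ℝ) (x : ι → Bool) : ℝ := ∏ i, w1 p (x i)

/-- Expectation under the product measure. -/
noncomputable def ex (p : ℝ) (g : (ι → Bool) → ℝ) : ℝ := ∑ x, wt p x * g x

lemma w1_nonneg {p : ℝ} (hp : 0 ≤ p) (hp1 : p ≤ 1) (b : Bool) : 0 ≤ w1 p b := by
  cases b <;> simp [w1] <;> linarith

lemma wt_nonneg {p : ℝ} (hp : 0 ≤ p) (hp1 : p ≤ 1) (x : ι → Bool) : 0 ≤ wt p x :=
  prod_nonneg fun _ _ => w1_nonneg hp hp1 _

lemma ex_prod (p : ℝ) (g : ι → Bool → ℝ) :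
    ex p (fun x => ∏ i, g i (x i)) = ∏ i, (p * g i true + (1 - p) * g i false) := by
  unfold ex wt
  simp_rw [← Finset.prod_mul_distrib]
  have h := (Finset.prod_univ_sum (fun _ : ι => (Finset.univ : Finset Bool))
    (fun i b => w1 p b * g i b))
  rw [Fintype.piFinset_univ] at h
  rw [← h]
  refine prod_congr rfl fun i _ => ?_
  simp [w1, Fintype.sum_bool]

lemma ex_one (p : ℝ) : ex p (fun _ : ι → Bool => (1 : ℝ)) = 1 := by
  have h := ex_prod (ι := ι) p (fun _ _ => 1)
  simpa using h

lemma ex_const (p c : ℝ) : ex p (fun _ : ι → Bool => c) = c := by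
  have h := ex_one (ι := ι) p
  unfold ex at h ⊢
  rw [← Finset.sum_mul, ]
  have h2 : ∑ x : ι → Bool, wt p x = 1 := by simpa using h
  rw [h2, one_mul]

lemma ex_add (p : ℝ) (a b : (ι → Bool) → ℝ) :
    ex p (fun x => a x + b x) = ex p a + ex p b := by
  unfold ex
  rw [← Finset.sum_add_distrib]
  exact sum_congr rfl fun x _ => by ring

lemma ex_sub (p : ℝ) (a b : (ι → Bool) → ℝ) :
    ex p (fun x => a x - b x) = ex p a - ex p b := by
  unfold ex
  rw [← Finset.sum_sub_distrib]
  exact sum_congr rfl fun x _ => by ring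

lemma ex_mul_left (p c : ℝ) (a : (ι → Bool) → ℝ) :
    ex p (fun x => c * a x) = c * ex p a := by
  unfold ex
  rw [Finset.mul_sum]
  exact sum_congr rfl fun x _ => by ring

lemma ex_mul_right (p c : ℝ) (a : (ι → Bool) → ℝ) :
    ex p (fun x => a x * c) = ex p a * c := by
  unfold ex
  rw [Finset.sum_mul]
  exact sum_congr rfl fun x _ => by ring

lemma ex_sum {α : Type*} (p : ℝ) (s : Finset α) (g : α → (ι → Bool) → ℝ) :
    ex p (fun x => ∑ j ∈ s, g j x) = ∑ j ∈ s, ex p (g j) := by
  unfold ex
  simp_rw [Finset.mul_sum]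
  rw [Finset.sum_comm]

lemma ex_congr (p : ℝ) {a b : (ι → Bool) → ℝ} (h : ∀ x, a x = b x) : ex p a = ex p b := by
  unfold ex
  exact sum_congr rfl fun x _ => by rw [h x]

lemma ex_le {p : ℝ} (hp : 0 ≤ p) (hp1 : p ≤ 1) {a b : (ι → Bool) → ℝ} (h : ∀ x, a x ≤ b x) :
    ex p a ≤ ex p b := by
  unfold ex
  exact sum_le_sum fun x _ => mul_le_mul_of_nonneg_left (h x) (wt_nonneg hp hp1 x)

lemma ex_nonneg {p : ℝ} (hp : 0 ≤ p) (hp1 : p ≤ 1) {a : (ι → Bool) → ℝ} (h : ∀ x, 0 ≤ a x) :
    0 ≤ ex p a := by
  unfold ex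
  exact sum_nonneg fun x _ => mul_nonneg (wt_nonneg hp hp1 x) (h x)

lemma ex_abs_le {p : ℝ} (hp : 0 ≤ p) (hp1 : p ≤ 1) (a : (ι → Bool) → ℝ) :
    |ex p a| ≤ ex p (fun x => |a x|) := by
  unfold ex
  refine (Finset.abs_sum_le_sum_abs _ _).trans (le_of_eq ?_)
  refine sum_congr rfl fun x _ => ?_
  rw [abs_mul, abs_of_nonneg (wt_nonneg hp hp1 x)]

lemma ex_comm (p : ℝ) (g : (ι → Bool) → (ι → Bool) → ℝ) :
    ex p (fun x => ex p (fun y => g x y)) = ex p (fun y => ex p (fun x => g x y)) := by
  unfold ex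
  simp_rw [Finset.mul_sum]
  rw [Finset.sum_comm]
  exact sum_congr rfl fun y _ => sum_congr rfl fun x _ => by ring

/-- Cauchy-Schwarz for the expectation. -/
lemma ex_cs {p : ℝ} (hp : 0 ≤ p) (hp1 : p ≤ 1) (a b : (ι → Bool) → ℝ) :
    (ex p (fun x => a x * b x)) ^ 2 ≤ ex p (fun x => a x ^ 2) * ex p (fun x => b x ^ 2) := by
  unfold ex
  refine Finset.sum_sq_le_sum_mul_sum_of_sq_eq_mul _ (fun x _ => ?_) (fun x _ => ?_)
    (fun x _ => by ring)
  · exact mul_nonneg (wt_nonneg hp hp1 x) (sq_nonneg _)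
  · exact mul_nonneg (wt_nonneg hp hp1 x) (sq_nonneg _)

/-- Take coordinates in `A` from `y` and the others from `x`. -/
def mix (A : Finset ι) (y x : ι → Bool) : ι → Bool := fun i => if i ∈ A then y i else x i

lemma wt_mix_mul (p : ℝ) (A : Finset ι) (x y : ι → Bool) :
    wt p (mix A y x) * wt p (mix A x y) = wt p x * wt p y := by
  unfold wt
  rw [← prod_mul_distrib, ← prod_mul_distrib]
  refine prod_congr rfl fun i _ => ?_
  by_cases h : i ∈ A <;> simp [mix, h, mul_comm]

lemma mix_mix_left (A : Finset ι) (x y : ι → Bool) : mix A (mix A y x) (mix A x y) = y := by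
  funext i
  by_cases h : i ∈ A <;> simp [mix, h]

lemma mix_mix_right (A : Finset ι) (x y : ι → Bool) : mix A (mix A x y) (mix A y x) = x := by
  funext i
  by_cases h : i ∈ A <;> simp [mix, h]

/-- The involution exchanging the coordinates in `A` of two points preserves the product weight. -/
lemma ex_swap (p : ℝ) (A : Finset ι) (g : (ι → Bool) → (ι → Bool) → ℝ) :
    ex p (fun x => ex p (fun y => g (mix A y x) (mix A x y))) =
      ex p (fun x => ex p (fun y => g x y)) := by
  unfold ex
  simp_rw [Finset.mul_sum]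
  rw [← Fintype.sum_prod_type' (fun x y => wt p x * (wt p y * g (mix A y x) (mix A x y))),
    ← Fintype.sum_prod_type' (fun x y => wt p x * (wt p y * g x y))]
  let e : Function.Involutive (fun z : (ι → Bool) × (ι → Bool) => (mix A z.2 z.1, mix A z.1 z.2)) := by
    intro z
    ext i <;> by_cases h : i ∈ A <;> simp [mix, h]
  have h := Equiv.sum_comp e.toPerm
    (fun z : (ι → Bool) × (ι → Bool) => wt p z.1 * (wt p z.2 * g z.1 z.2))
  rw [← h]
  refine sum_congr rfl fun z _ => ?_
  simp only [Function.Involutive.coe_toPerm]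
  have h2 := wt_mix_mul p A z.1 z.2
  calc wt p z.1 * (wt p z.2 * g (mix A z.2 z.1) (mix A z.1 z.2))
      = (wt p z.1 * wt p z.2) * g (mix A z.2 z.1) (mix A z.1 z.2) := by ring
    _ = (wt p (mix A z.2 z.1) * wt p (mix A z.1 z.2)) * g (mix A z.2 z.1) (mix A z.1 z.2) := by
        rw [h2]
    _ = _ := by ring

/-- Averaging over a block of coordinates preserves the expectation. -/
lemma ex_avg (p : ℝ) (A : Finset ι) (g : (ι → Bool) → ℝ) :
    ex p (fun x => ex p (fun y => g (mix A y x))) = ex p g := by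
  have h := ex_swap p A (fun u _ => g u)
  rw [h]
  refine ex_congr p fun x => ?_
  exact ex_const p (g x)

/-! ### Characters -/

/-- The normalised biased coordinate function. -/
noncomputable def phi (p : ℝ) (b : Bool) : ℝ :=
  if b then (1 - p) / Real.sqrt (p * (1 - p)) else -p / Real.sqrt (p * (1 - p))

/-- The biased character of a set of coordinates. -/
noncomputable def chi (p : ℝ) (S : Finset ι) (x : ι → Bool) : ℝ := ∏ i ∈ S, phi p (x i)

/-- The biased Fourier coefficient. -/
noncomputable def coef (p : ℝ) (f : (ι → Bool) → ℝ) (S : Finset ι) : ℝ :=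
  ex p (fun x => f x * chi p S x)

lemma sqrt_pos_aux {p : ℝ} (hp : 0 < p) (hp1 : p < 1) : 0 < Real.sqrt (p * (1 - p)) :=
  Real.sqrt_pos.mpr (mul_pos hp (by linarith))

lemma sqrt_sq_aux {p : ℝ} (hp : 0 < p) (hp1 : p < 1) :
    Real.sqrt (p * (1 - p)) ^ 2 = p * (1 - p) :=
  Real.sq_sqrt (mul_pos hp (by linarith)).le

lemma phi_mean {p : ℝ} (hp : 0 < p) (hp1 : p < 1) :
    p * phi p true + (1 - p) * phi p false = 0 := by
  have hs := sqrt_pos_aux hp hp1
  simp only [phi, if_true, Bool.false_eq_true, if_false]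
  field_simp
  ring

lemma phi_var {p : ℝ} (hp : 0 < p) (hp1 : p < 1) :
    p * phi p true ^ 2 + (1 - p) * phi p false ^ 2 = 1 := by
  have hs := sqrt_pos_aux hp hp1
  have hs2 := sqrt_sq_aux hp hp1
  simp only [phi, if_true, Bool.false_eq_true, if_false]
  field_simp
  rw [hs2]
  ring

/-- The one coordinate completeness relation. -/
lemma phi_complete {p : ℝ} (hp : 0 < p) (hp1 : p < 1) (a b : Bool) :
    w1 p a * (1 + phi p a * phi p b) = if a = b then 1 else 0 := by
  have hs := sqrt_pos_aux hp hp1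
  have hs2 := sqrt_sq_aux hp hp1
  have h1 : (1 - p) ≠ 0 := by linarith
  cases a <;> cases b <;> simp only [w1, phi, Bool.false_eq_true, if_true, if_false,
    reduceCtorEq, Bool.true_eq_false]
  · field_simp
    rw [hs2]
    ring
  · field_simp
    rw [hs2]
    field_simp
    ring
  · field_simp
    rw [hs2]
    field_simp
    ring
  · field_simp
    rw [hs2]
    ring

lemma chi_empty (p : ℝ) (x : ι → Bool) : chi p ∅ x = 1 := by simp [chi]

lemma chi_eq_prod (p : ℝ) (S : Finset ι) (x : ι → Bool) :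
    chi p S x = ∏ i, if i ∈ S then phi p (x i) else 1 := by
  rw [Finset.prod_ite_mem, Finset.univ_inter]
  rfl

lemma chi_union (p : ℝ) {S T : Finset ι} (h : Disjoint S T) (x : ι → Bool) :
    chi p (S ∪ T) x = chi p S x * chi p T x := by
  unfold chi
  rw [Finset.prod_union h]

lemma chi_mix (p : ℝ) (A R : Finset ι) (v u : ι → Bool) :
    chi p R (mix A v u) = chi p (R ∩ A) v * chi p (R \ A) u := by
  unfold chi
  rw [← Finset.prod_inter_mul_prod_diff R A]
  congr 1
  · refine prod_congr rfl fun i hi => ?_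
    simp [mix, (Finset.mem_inter.mp hi).2]
  · refine prod_congr rfl fun i hi => ?_
    simp [mix, (Finset.mem_sdiff.mp hi).2]

lemma ex_chi_mul_chi {p : ℝ} (hp : 0 < p) (hp1 : p < 1) (S T : Finset ι) :
    ex p (fun x => chi p S x * chi p T x) = if S = T then 1 else 0 := by
  have h1 : ∀ x : ι → Bool, chi p S x * chi p T x =
      ∏ i, ((if i ∈ S then phi p (x i) else 1) * (if i ∈ T then phi p (x i) else 1)) := by
    intro x
    rw [prod_mul_distrib, ← chi_eq_prod, ← chi_eq_prod]
  simp_rw [h1]
  rw [ex_prod p (fun i b => (if i ∈ S then phi p b else 1) * (if i ∈ T then phi p b else 1))]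
  have hm := phi_mean hp hp1
  have hv := phi_var hp hp1
  have h2 : ∀ i, p * ((if i ∈ S then phi p true else 1) * (if i ∈ T then phi p true else 1))
      + (1 - p) * ((if i ∈ S then phi p false else 1) * (if i ∈ T then phi p false else 1))
      = if (i ∈ S ↔ i ∈ T) then 1 else 0 := by
    intro i
    by_cases h3 : i ∈ S <;> by_cases h4 : i ∈ T <;> simp only [h3, h4, if_true, if_false, iff_true,
      iff_false, not_true_eq_false, not_false_eq_true, true_iff, false_iff]
    · nlinarith [hv]
    · nlinarith [hm]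
    · nlinarith [hm]
    · ring
  simp_rw [h2]
  rw [Finset.prod_boole]
  by_cases h : S = T
  · subst h
    simp
  · rw [if_neg h, if_neg]
    intro h5
    apply h
    ext i
    exact h5 i (mem_univ i)

lemma ex_chi {p : ℝ} (hp : 0 < p) (hp1 : p < 1) (S : Finset ι) :
    ex p (chi p S) = if S = ∅ then 1 else 0 := by
  have h := ex_chi_mul_chi hp hp1 S ∅
  simp only [chi_empty, mul_one] at h
  exact h

lemma sum_chi_chi {p : ℝ} (hp : 0 < p) (hp1 : p < 1) (x y : ι → Bool) :
    wt p x * ∑ S : Finset ι, chi p S x * chi p S y = if x = y then 1 else 0 := by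
  have h1 : ∀ S : Finset ι, chi p S x * chi p S y = ∏ i ∈ S, (phi p (x i) * phi p (y i)) := by
    intro S
    simp only [chi, prod_mul_distrib]
  simp_rw [h1]
  have h2 := Finset.prod_one_add (s := (univ : Finset ι)) (f := fun i => phi p (x i) * phi p (y i))
  rw [Finset.powerset_univ] at h2
  rw [← h2]
  unfold wt
  rw [← prod_mul_distrib]
  simp_rw [phi_complete hp hp1]
  rw [Finset.prod_boole]
  by_cases h : x = y
  · subst h
    simp
  · rw [if_neg h, if_neg]
    intro h5
    apply h
    funext i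
    exact h5 i (mem_univ i)

/-- Plancherel. -/
lemma sum_coef_mul {p : ℝ} (hp : 0 < p) (hp1 : p < 1) (f g : (ι → Bool) → ℝ) :
    ∑ S : Finset ι, coef p f S * coef p g S = ex p (fun x => f x * g x) := by
  unfold coef ex
  simp_rw [Finset.sum_mul_sum]
  rw [Finset.sum_comm]
  refine sum_congr rfl fun x _ => ?_
  rw [Finset.sum_comm]
  have h : ∀ y : ι → Bool, ∑ S : Finset ι, wt p x * (f x * chi p S x) * (wt p y * (g y * chi p S y))
      = f x * wt p y * g y * (wt p x * ∑ S : Finset ι, chi p S x * chi p S y) := by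
    intro y
    rw [Finset.mul_sum, Finset.mul_sum]
    exact sum_congr rfl fun S _ => by ring
  simp_rw [h, sum_chi_chi hp hp1]
  simp only [mul_ite, mul_one, mul_zero, Finset.sum_ite_eq, mem_univ, if_true]
  ring

/-- Parseval. -/
lemma sum_coef_sq {p : ℝ} (hp : 0 < p) (hp1 : p < 1) (f : (ι → Bool) → ℝ) :
    ∑ S : Finset ι, coef p f S ^ 2 = ex p (fun x => f x ^ 2) := by
  have h := sum_coef_mul hp hp1 f f
  simp only [← pow_two] at h
  exact h

lemma coef_empty (p : ℝ) (f : (ι → Bool) → ℝ) : coef p f ∅ = ex p f := by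
  unfold coef
  simp [chi_empty]

/-! ### Averaging over a block of coordinates, against a character on the block -/

/-- The coefficient at `Q` of the restriction of `f` obtained by fixing the coordinates outside
`A` as in `x`. -/
noncomputable def pc (p : ℝ) (A Q : Finset ι) (f : (ι → Bool) → ℝ) (x : ι → Bool) : ℝ :=
  ex p (fun y => f (mix A y x) * chi p Q y)

lemma coef_pc {p : ℝ} (hp : 0 < p) (hp1 : p < 1) {A Q : Finset ι} (hQ : Q ⊆ A)
    (f : (ι → Bool) → ℝ) (R : Finset ι) :
    coef p (pc p A Q f) R = if Disjoint R A then coef p f (Q ∪ R) else 0 := by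
  have h1 : coef p (pc p A Q f) R = ex p (fun x => ex p (fun y =>
      (fun u v => f u * chi p Q (mix A u v) * chi p R (mix A v u)) (mix A y x) (mix A x y))) := by
    unfold coef pc
    refine ex_congr p fun x => ?_
    rw [← ex_mul_right]
    refine ex_congr p fun y => ?_
    simp only [mix_mix_left, mix_mix_right]
  rw [h1, ex_swap p A (fun u v => f u * chi p Q (mix A u v) * chi p R (mix A v u))]
  have h2 : ∀ u v : ι → Bool, chi p Q (mix A u v) = chi p Q u := by
    intro u v
    unfold chi
    refine prod_congr rfl fun i hi => ?_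
    simp [mix, hQ hi]
  simp_rw [h2, chi_mix p A R]
  have h3 : ∀ u : ι → Bool, ex p (fun v => f u * chi p Q u * (chi p (R ∩ A) v * chi p (R \ A) u))
      = f u * chi p Q u * chi p (R \ A) u * (if R ∩ A = ∅ then 1 else 0) := by
    intro u
    rw [← ex_chi hp hp1, ← ex_mul_left]
    refine ex_congr p fun v => ?_
    ring
  simp_rw [h3]
  by_cases hd : Disjoint R A
  · have h4 : R ∩ A = ∅ := Finset.disjoint_iff_inter_eq_empty.mp hd
    have h5 : R \ A = R := Finset.sdiff_eq_self_of_disjoint hd
    have h6 : Disjoint Q R := (hd.mono_right hQ).symm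
    rw [if_pos hd]
    unfold coef
    refine ex_congr p fun u => ?_
    rw [h4, h5, chi_union p h6]
    simp only [if_true]
    ring
  · have h4 : R ∩ A ≠ ∅ := fun h => hd (Finset.disjoint_iff_inter_eq_empty.mpr h)
    rw [if_neg hd]
    simp only [if_neg h4, mul_zero]
    exact ex_const p 0

/-- The expectation of the square of a block coefficient. -/
lemma ex_pc_sq {p : ℝ} (hp : 0 < p) (hp1 : p < 1) {A Q : Finset ι} (hQ : Q ⊆ A)
    (f : (ι → Bool) → ℝ) :
    ex p (fun x => pc p A Q f x ^ 2) =
      ∑ S ∈ univ.filter (fun S : Finset ι => S ∩ A = Q), coef p f S ^ 2 := by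
  rw [← sum_coef_sq hp hp1 (pc p A Q f)]
  simp_rw [coef_pc hp hp1 hQ f]
  have h1 : ∀ R : Finset ι, (if Disjoint R A then coef p f (Q ∪ R) else 0) ^ 2
      = if Disjoint R A then coef p f (Q ∪ R) ^ 2 else 0 := by
    intro R
    split_ifs <;> simp
  simp_rw [h1]
  rw [← Finset.sum_filter]
  refine Finset.sum_nbij' (fun R => Q ∪ R) (fun S => S \ A) ?_ ?_ ?_ ?_ ?_
  · intro R hR
    have hd := (Finset.mem_filter.mp hR).2
    simp only [mem_filter, mem_univ, true_and]
    rw [Finset.union_inter_distrib_right, Finset.disjoint_iff_inter_eq_empty.mp hd,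
      Finset.union_empty, Finset.inter_eq_left.mpr hQ]
  · intro S hS
    simp only [mem_filter, mem_univ, true_and]
    exact Finset.sdiff_disjoint
  · intro R hR
    have hd := (Finset.mem_filter.mp hR).2
    rw [Finset.union_sdiff_distrib, Finset.sdiff_eq_empty_iff_subset.mpr hQ, Finset.empty_union,
      Finset.sdiff_eq_self_of_disjoint hd]
  · intro S hS
    have hd := (Finset.mem_filter.mp hS).2
    rw [← hd]
    ext i
    by_cases h : i ∈ A <;> simp [h]
  · intro R hR
    rfl

/-- The correlation of `f` with its average over a block. -/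
lemma ex_mul_pc_empty {p : ℝ} (hp : 0 < p) (hp1 : p < 1) (Y : Finset ι) (f : (ι → Bool) → ℝ) :
    ex p (fun u => f u * pc p Y ∅ f u) =
      ∑ S : Finset ι, if Disjoint S Y then coef p f S ^ 2 else 0 := by
  rw [← sum_coef_mul hp hp1]
  refine sum_congr rfl fun S _ => ?_
  rw [coef_pc hp hp1 (Finset.empty_subset Y) f S]
  split_ifs
  · rw [Finset.empty_union]
    ring
  · ring

end Vale.Agent.Lib.P063
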