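import Mathlib

/-!
Hypergraph properties, the measures `μ_p`, the levels `p_a` and the threshold width.
-/

namespace Vale.Agent.Lib.P063

/-- The edge set `E_{n,r}`: the `r`-element subsets of the vertex set `Fin n`. -/
abbrev Edge (n r : ℕ) : Type := {e : Finset (Fin n) // e.card = r}

/-- The action of a vertex permutation on edges. -/
def relabel {n r : ℕ} (σ : Equiv.Perm (Fin n)) (e : Edge n r) : Edge n r :=
  ⟨e.1.map σ.toEmbedding, by rw [Finset.card_map]; exact e.2⟩

/-- An `r`-uniform hypergraph property: a family of hypergraphs (points of `{0,1}^{E_{n,r}}`)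
invariant under all permutations of the vertex set. -/
def IsHypergraphProperty {n r : ℕ} (P : Set (Edge n r → Bool)) : Prop :=
  ∀ (σ : Equiv.Perm (Fin n)) (x : Edge n r → Bool), x ∘ relabel σ ∈ P ↔ x ∈ P

/-- The family is closed under adding edges. -/
def IsIncreasing {n r : ℕ} (P : Set (Edge n r → Bool)) : Prop :=
  ∀ x y : Edge n r → Bool, (∀ e, x e = true → y e = true) → x ∈ P → y ∈ P

/-- The family is neither empty nor everything. -/
def IsNontrivial {n r : ℕ} (P : Set (Edge n r → Bool)) : Prop :=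
  P.Nonempty ∧ P ≠ Set.univ

/-- `μ_p(P)`: the probability that the random hypergraph, each edge present independently with
probability `p`, lies in `P`. -/
noncomputable def muP {n r : ℕ} (p : ℝ) (P : Set (Edge n r → Bool)) : ℝ :=
  ∑ x : Edge n r → Bool, P.indicator (fun x => ∏ e, if x e = true then p else 1 - p) x

/-- `p_a(P) = inf {p ∈ [0,1] : μ_p(P) ≥ a}`. -/
noncomputable def pLevel {n r : ℕ} (a : ℝ) (P : Set (Edge n r → Bool)) : ℝ :=
  sInf {p : ℝ | p ∈ Set.Icc (0 : ℝ) 1 ∧ a ≤ muP p P}

/-- The threshold width `w_ε(P) = p_{1-ε}(P) - p_ε(P)`. -/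
noncomputable def width {n r : ℕ} (ε : ℝ) (P : Set (Edge n r → Bool)) : ℝ :=
  pLevel (1 - ε) P - pLevel ε P

end Vale.Agent.Lib.P063
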