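import Vale.Agent.Lib.P063.Key
import Vale.Agent.Lib.P063.Defs

/-!
The hypergraph part: from the key inequality to the spectral bound.
-/

open Finset

set_option linter.unusedSectionVars false
set_option linter.unusedSimpArgs false
set_option linter.unusedVariables false
set_option linter.deprecated false

namespace Vale.Agent.Lib.P063

variable {n r : ℕ}

/-- A vertex permutation as a permutation of the edges. -/
def liftPerm (σ : Equiv.Perm (Fin n)) : Equiv.Perm (Edge n r) where
  toFun := relabel σ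
  invFun := relabel σ.symm
  left_inv e := Subtype.ext (by
    ext a
    simp [relabel, Finset.mem_map])
  right_inv e := Subtype.ext (by
    ext a
    simp [relabel, Finset.mem_map])

/-- The vertices covered by a set of edges. -/
def verts (S : Finset (Edge n r)) : Finset (Fin n) := S.biUnion (fun e => e.1)

/-- The degree of a vertex in a set of edges. -/
def deg (S : Finset (Edge n r)) (w : Fin n) : ℕ := (S.filter (fun e => w ∈ e.1)).card

lemma mem_verts {S : Finset (Edge n r)} {w : Fin n} : w ∈ verts S ↔ ∃ e ∈ S, w ∈ e.1 := by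
  simp [verts]

lemma relabel_fix {σ : Equiv.Perm (Fin n)} {e : Edge n r} (h : ∀ u ∈ e.1, σ u = u) :
    relabel σ e = e := by
  apply Subtype.ext
  ext a
  simp only [relabel, Finset.mem_map, Equiv.coe_toEmbedding]
  constructor
  · rintro ⟨b, hb, rfl⟩
    rwa [h b hb]
  · intro ha
    exact ⟨a, ha, h a ha⟩

/-- One application of the key inequality to the star of `w`. -/
theorem star_bound {p : ℝ} (hp : 0 < p) (hp1 : p < 1) (f : (Edge n r → Bool) → ℝ)
    (hf : ∀ x, f x = 0 ∨ f x = 1) (hinv : ∀ (σ : Equiv.Perm (Fin n)) x, f (x ∘ relabel σ) = f x)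
    (w : Fin n) (W' : Finset (Fin n)) (hw : w ∉ W') (d : ℕ) (hd : 1 ≤ d) (t : ℝ) (ht : 0 ≤ t)
    (htq : bC p ^ d ≤ t ^ 3 * ((W'.card : ℝ) + 1)) :
    ∑ S ∈ univ.filter (fun S : Finset (Edge n r) => deg S w = d ∧ Disjoint (verts S) W'),
        coef p f S ^ 2 ≤
      2 * t * ∑ S : Finset (Edge n r), if w ∈ verts S then coef p f S ^ 2 else 0 := by
  classical
  set W := insert w W' with hW
  set T : Finset (Edge n r) := univ.filter (fun e => ¬ Disjoint e.1 W) with hT
  set Y : Finset (Edge n r) := univ.filter (fun e => w ∈ e.1 ∧ Disjoint e.1 W') with hY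
  have hYT : Y ⊆ T := by
    intro e he
    have h1 := (Finset.mem_filter.mp he).2.1
    refine Finset.mem_filter.mpr ⟨mem_univ _, fun hdis => ?_⟩
    exact (Finset.disjoint_left.mp hdis h1) (Finset.mem_insert_self _ _)
  set QQ := Y.powersetCard d with hQQdef
  set τ : Fin n → Equiv.Perm (Edge n r) := fun j => liftPerm (Equiv.swap w j) with hτ
  have hτapp : ∀ j e, τ j e = relabel (Equiv.swap w j) e := fun j e => rfl
  have hfix : ∀ j ∈ W, ∀ e, e ∉ T → τ j e = e := by
    intro j hj e he
    have h1 : Disjoint e.1 W := by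
      by_contra h2
      exact he (Finset.mem_filter.mpr ⟨mem_univ _, h2⟩)
    rw [hτapp]
    refine relabel_fix fun u hu => ?_
    have h3 : u ∉ W := Finset.disjoint_left.mp h1 hu
    apply Equiv.swap_apply_of_ne_of_ne
    · rintro rfl
      exact h3 (Finset.mem_insert_self _ _)
    · rintro rfl
      exact h3 hj
  have hinv' : ∀ j ∈ W, ∀ x, f (x ∘ τ j) = f x := by
    intro j _ x
    exact hinv (Equiv.swap w j) x
  have hQQ : ∀ Q ∈ QQ, Q ⊆ Y ∧ Q.card ≤ d ∧ Q ≠ ∅ := by
    intro Q hQ
    have h1 := Finset.mem_powersetCard.mp hQ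
    refine ⟨h1.1, h1.2.le, fun h2 => ?_⟩
    rw [h2, Finset.card_empty] at h1
    omega
  have hinj : Set.InjOn (fun z : Fin n × Finset (Edge n r) => z.2.map (τ z.1).toEmbedding)
      (↑(W ×ˢ QQ) : Set (Fin n × Finset (Edge n r))) := by
    rintro ⟨j, Q⟩ hz ⟨j', Q'⟩ hz' heq
    simp only [Finset.coe_product, Set.mem_prod, Finset.mem_coe] at hz hz'
    simp only at heq
    obtain ⟨hj, hQ⟩ := hz
    obtain ⟨hj', hQ'⟩ := hz'
    have hQne : Q.Nonempty := Finset.nonempty_iff_ne_empty.mpr (hQQ Q hQ).2.2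
    obtain ⟨e, he⟩ := hQne
    have h1 : τ j e ∈ Q'.map (τ j').toEmbedding := by
      rw [← heq]
      exact Finset.mem_map_of_mem _ he
    obtain ⟨e', he', h2⟩ := Finset.mem_map.mp h1
    have hey : e' ∈ Y := (hQQ Q' hQ').1 he'
    have hey2 := (Finset.mem_filter.mp hey).2.2
    have hex : e ∈ Y := (hQQ Q hQ).1 he
    have hex1 := (Finset.mem_filter.mp hex).2.1
    have h3 : j ∈ (τ j e).1 := by
      rw [hτapp]
      simp only [relabel, Finset.mem_map, Equiv.coe_toEmbedding]
      exact ⟨w, hex1, Equiv.swap_apply_left w j⟩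
    rw [← h2] at h3
    have hjj : j = j' := by
      by_contra hne
      rw [show (Equiv.toEmbedding (τ j')) e' = τ j' e' from rfl, hτapp] at h3
      simp only [relabel, Finset.mem_map, Equiv.coe_toEmbedding] at h3
      obtain ⟨u, hu, hsw⟩ := h3
      have hu2 : u = Equiv.swap w j' j := by
        rw [← hsw, Equiv.swap_apply_self]
      by_cases hjw : j = w
      · -- then `u = j'`
        subst hjw
        have h5 : u = j' := by
          rw [hu2, Equiv.swap_apply_left]
        have h6 : j' ∈ W' := by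
          rcases Finset.mem_insert.mp hj' with h7 | h7
          · exact absurd h7.symm hne
          · exact h7
        exact Finset.disjoint_left.mp hey2 (h5 ▸ hu) h6
      · have h5 : u = j := by
          rw [hu2]
          exact Equiv.swap_apply_of_ne_of_ne hjw hne
        have h6 : j ∈ W' := by
          rcases Finset.mem_insert.mp hj with h7 | h7
          · exact absurd h7 hjw
          · exact h7
        exact Finset.disjoint_left.mp hey2 (h5 ▸ hu) h6
    subst hjj
    have hQQ' : Q = Q' := Finset.map_injective _ heq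
    rw [hQQ']
  have hcard : (W.card : ℝ) = (W'.card : ℝ) + 1 := by
    rw [hW, Finset.card_insert_of_notMem hw]
    push_cast
    ring
  have hJ : 0 < W.card := by
    rw [hW, Finset.card_insert_of_notMem hw]
    omega
  have hkey := key_ineq hp hp1 f hf T Y hYT W τ hfix hinv' d QQ hQQ hinj t ht hJ
    (by rw [hcard]; exact htq)
  -- lower bound of the left side
  have hlow : ∑ S ∈ univ.filter (fun S : Finset (Edge n r) => deg S w = d ∧ Disjoint (verts S) W'),
        coef p f S ^ 2 ≤
      ∑ Q ∈ QQ, ∑ S ∈ univ.filter (fun S : Finset (Edge n r) => S ∩ T = Q), coef p f S ^ 2 := by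
    set SS := univ.filter (fun S : Finset (Edge n r) => deg S w = d ∧ Disjoint (verts S) W') with hSS
    have hmaps : ∀ S ∈ SS, S ∩ T ∈ QQ := by
      intro S hS
      obtain ⟨hdeg, hdis⟩ := (Finset.mem_filter.mp hS).2
      have hfil : S ∩ T = S.filter (fun e => w ∈ e.1) := by
        ext e
        simp only [Finset.mem_inter, Finset.mem_filter]
        constructor
        · rintro ⟨he, heT⟩
          refine ⟨he, ?_⟩
          have h1 := (Finset.mem_filter.mp heT).2
          obtain ⟨u, hu1, hu2⟩ := Finset.not_disjoint_iff.mp h1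
          rcases Finset.mem_insert.mp hu2 with h3 | h3
          · exact h3 ▸ hu1
          · exact absurd h3 (Finset.disjoint_left.mp hdis (mem_verts.mpr ⟨e, he, hu1⟩))
        · rintro ⟨he, hwe⟩
          refine ⟨he, Finset.mem_filter.mpr ⟨mem_univ _, fun hd2 => ?_⟩⟩
          exact (Finset.disjoint_left.mp hd2 hwe) (Finset.mem_insert_self _ _)
      refine Finset.mem_powersetCard.mpr ⟨?_, ?_⟩
      · rw [hfil]
        intro e he
        obtain ⟨he1, he2⟩ := Finset.mem_filter.mp he
        refine Finset.mem_filter.mpr ⟨mem_univ _, he2, ?_⟩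
        exact Finset.disjoint_left.mpr fun u hu => Finset.disjoint_left.mp hdis
          (mem_verts.mpr ⟨e, he1, hu⟩)
      · rw [hfil]
        exact hdeg
    rw [← Finset.sum_fiberwise_of_maps_to hmaps]
    refine sum_le_sum fun Q _ => ?_
    refine Finset.sum_le_sum_of_subset_of_nonneg ?_ (fun _ _ _ => sq_nonneg _)
    intro S hS
    exact Finset.mem_filter.mpr ⟨mem_univ _, (Finset.mem_filter.mp hS).2⟩
  -- upper bound of the right side
  have hup : (∑ S : Finset (Edge n r), if Disjoint S Y then 0 else coef p f S ^ 2) ≤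
      ∑ S : Finset (Edge n r), if w ∈ verts S then coef p f S ^ 2 else 0 := by
    refine sum_le_sum fun S _ => ?_
    by_cases h1 : Disjoint S Y
    · rw [if_pos h1]
      split_ifs
      · exact sq_nonneg _
      · exact le_rfl
    · rw [if_neg h1]
      obtain ⟨e, he1, he2⟩ := Finset.not_disjoint_iff.mp h1
      have h2 : w ∈ verts S := mem_verts.mpr ⟨e, he1, (Finset.mem_filter.mp he2).2.1⟩
      rw [if_pos h2]
  calc _ ≤ _ := hlow
    _ ≤ _ := hkey
    _ ≤ _ := mul_le_mul_of_nonneg_left hup (by linarith)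

/-- Double counting over a disjoint family of blocks. -/
theorem low_degree_bound {p : ℝ} (hp : 0 < p) (hp1 : p < 1) (f : (Edge n r → Bool) → ℝ)
    (hf : ∀ x, f x = 0 ∨ f x = 1) (hinv : ∀ (σ : Equiv.Perm (Fin n)) x, f (x ∘ relabel σ) = f x)
    (w : Fin n) (d : ℕ) (hd : 1 ≤ d) (v q : ℕ) (hv : 1 ≤ v) (hq : 1 ≤ q)
    (hn : 2 * v * (q - 1) ≤ n - 1) (t : ℝ) (ht : 0 ≤ t) (htq : bC p ^ d ≤ t ^ 3 * q) :
    ∑ S ∈ univ.filter (fun S : Finset (Edge n r) => deg S w = d ∧ (verts S).card ≤ v),
        coef p f S ^ 2 ≤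
      4 * t * ∑ S : Finset (Edge n r), if w ∈ verts S then coef p f S ^ 2 else 0 := by
  classical
  have hcard : Fintype.card (Fin (2 * v) × Fin (q - 1)) ≤ Fintype.card {u : Fin n // u ≠ w} := by
    have h1 : Fintype.card {u : Fin n // u ≠ w} = n - 1 := by
      rw [Fintype.card_of_subtype (univ.erase w) (by simp)]
      simp [Finset.card_erase_of_mem]
    rw [h1]
    simpa using hn
  obtain ⟨e⟩ := Function.Embedding.nonempty_of_card_le hcard
  set W' : Fin (2 * v) → Finset (Fin n) :=
    fun i => univ.image (fun k : Fin (q - 1) => (e (i, k)).1) with hW'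
  have hW'card : ∀ i, (W' i).card = q - 1 := by
    intro i
    rw [hW', Finset.card_image_of_injective]
    · simp
    · intro k k' hk
      have h1 := e.injective (Subtype.ext hk)
      exact (Prod.ext_iff.mp h1).2
  have hwW' : ∀ i, w ∉ W' i := by
    intro i hi
    obtain ⟨k, _, hk⟩ := Finset.mem_image.mp hi
    exact (e (i, k)).2 hk
  have hdis : ∀ u i i', u ∈ W' i → u ∈ W' i' → i = i' := by
    intro u i i' hi hi'
    obtain ⟨k, _, hk⟩ := Finset.mem_image.mp hi
    obtain ⟨k', _, hk'⟩ := Finset.mem_image.mp hi'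
    have h1 := e.injective (Subtype.ext (hk.trans hk'.symm))
    exact (Prod.ext_iff.mp h1).1
  set a : Finset (Edge n r) → ℝ := fun S => coef p f S ^ 2 with ha
  have ha0 : ∀ S, 0 ≤ a S := fun S => sq_nonneg _
  set A : ℝ := ∑ S : Finset (Edge n r), if w ∈ verts S then a S else 0 with hA
  have hstar : ∀ i, ∑ S ∈ univ.filter (fun S : Finset (Edge n r) =>
      deg S w = d ∧ Disjoint (verts S) (W' i)), a S ≤ 2 * t * A := by
    intro i
    refine star_bound hp hp1 f hf hinv w (W' i) (hwW' i) d hd t ht ?_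
    have h1 : ((W' i).card : ℝ) + 1 = q := by
      rw [hW'card]
      have : q - 1 + 1 = q := by omega
      exact_mod_cast this
    rw [h1]
    exact htq
  set B := univ.filter (fun S : Finset (Edge n r) => deg S w = d ∧ (verts S).card ≤ v) with hB
  have hlow : ∀ i, ∑ S ∈ B, (if Disjoint (verts S) (W' i) then a S else 0) ≤ 2 * t * A := by
    intro i
    refine le_trans ?_ (hstar i)
    rw [← Finset.sum_filter]
    refine Finset.sum_le_sum_of_subset_of_nonneg ?_ (fun _ _ _ => ha0 _)
    intro S hS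
    obtain ⟨h1, h2⟩ := Finset.mem_filter.mp hS
    exact Finset.mem_filter.mpr ⟨mem_univ _, (Finset.mem_filter.mp h1).2.1, h2⟩
  have hcount : ∀ S ∈ B, v ≤ (univ.filter (fun i => Disjoint (verts S) (W' i))).card := by
    intro S hS
    have h1 := (Finset.mem_filter.mp hS).2.2
    have h2 : (univ.filter (fun i => ¬ Disjoint (verts S) (W' i))).card ≤ (verts S).card := by
      refine Finset.card_le_card_of_forall_subsingleton (fun i u => u ∈ W' i) ?_ ?_
      · intro i hi
        obtain ⟨u, hu1, hu2⟩ := Finset.not_disjoint_iff.mp (Finset.mem_filter.mp hi).2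
        exact ⟨u, hu1, hu2⟩
      · intro u _ i hi i' hi'
        exact hdis u i i' hi.2 hi'.2
    have h3 := Finset.card_filter_add_card_filter_not (s := (univ : Finset (Fin (2 * v))))
      (fun i => Disjoint (verts S) (W' i))
    simp only [Finset.card_univ, Fintype.card_fin] at h3
    omega
  have hv0 : (0 : ℝ) < v := by exact_mod_cast hv
  have hsum : (v : ℝ) * ∑ S ∈ B, a S ≤ 2 * v * (2 * t * A) := by
    calc (v : ℝ) * ∑ S ∈ B, a S = ∑ S ∈ B, (v : ℝ) * a S := Finset.mul_sum _ _ _
      _ ≤ ∑ S ∈ B, ((univ.filter (fun i => Disjoint (verts S) (W' i))).card : ℝ) * a S := by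
          refine sum_le_sum fun S hS => mul_le_mul_of_nonneg_right ?_ (ha0 S)
          exact_mod_cast hcount S hS
      _ = ∑ S ∈ B, ∑ i, (if Disjoint (verts S) (W' i) then a S else 0) := by
          refine sum_congr rfl fun S _ => ?_
          rw [← Finset.sum_filter, Finset.sum_const, nsmul_eq_mul]
      _ = ∑ i, ∑ S ∈ B, (if Disjoint (verts S) (W' i) then a S else 0) := Finset.sum_comm
      _ ≤ ∑ _i : Fin (2 * v), 2 * t * A := sum_le_sum fun i _ => hlow i
      _ = 2 * v * (2 * t * A) := by
          rw [Finset.sum_const, Finset.card_univ, Fintype.card_fin, nsmul_eq_mul]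
          push_cast
          ring
  have h5 : (v : ℝ) * ∑ S ∈ B, a S ≤ v * (4 * t * A) := by
    calc _ ≤ _ := hsum
      _ = _ := by ring
  exact le_of_mul_le_mul_left h5 hv0

lemma card_verts_le (S : Finset (Edge n r)) : (verts S).card ≤ r * S.card := by
  unfold verts
  refine Finset.card_biUnion_le.trans (le_of_eq ?_)
  rw [Finset.sum_congr rfl (fun e _ => e.2), Finset.sum_const, smul_eq_mul, mul_comm]

lemma sum_deg (S : Finset (Edge n r)) : ∑ w ∈ verts S, deg S w = r * S.card := by
  have h := Finset.sum_card_bipartiteAbove_eq_sum_card_bipartiteBelow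
    (fun (w : Fin n) (e : Edge n r) => w ∈ e.1) (s := verts S) (t := S)
  have h1 : ∀ w, (S.bipartiteAbove (fun (w : Fin n) (e : Edge n r) => w ∈ e.1) w).card = deg S w :=
    fun w => rfl
  have h2 : ∀ e ∈ S, ((verts S).bipartiteBelow (fun (w : Fin n) (e : Edge n r) => w ∈ e.1) e).card
      = r := by
    intro e he
    have : (verts S).bipartiteBelow (fun (w : Fin n) (e : Edge n r) => w ∈ e.1) e = e.1 := by
      ext u
      simp only [Finset.mem_bipartiteBelow]
      constructor
      · exact fun h3 => h3.2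
      · exact fun h3 => ⟨mem_verts.mpr ⟨e, he, h3⟩, h3⟩
    rw [this]
    exact e.2
  simp_rw [h1] at h
  rw [h, Finset.sum_congr rfl h2, Finset.sum_const, smul_eq_mul, mul_comm]

lemma deg_le (hr : 1 ≤ r) (S : Finset (Edge n r)) (w : Fin n) :
    deg S w ≤ (verts S).card ^ (r - 1) := by
  unfold deg
  have h1 : (S.filter (fun e => w ∈ e.1)).card ≤ ((verts S).powersetCard (r - 1)).card := by
    refine Finset.card_le_card_of_injOn (fun e => e.1.erase w) ?_ ?_
    · intro e he
      obtain ⟨h2, h3⟩ := Finset.mem_filter.mp he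
      refine Finset.mem_coe.mpr (Finset.mem_powersetCard.mpr ⟨?_, ?_⟩)
      · intro u hu
        exact mem_verts.mpr ⟨e, h2, (Finset.mem_erase.mp hu).2⟩
      · rw [Finset.card_erase_of_mem h3, e.2]
    · intro e he e' he' h
      have h3 := (Finset.mem_filter.mp he).2
      have h3' := (Finset.mem_filter.mp he').2
      apply Subtype.ext
      rw [← Finset.insert_erase h3, ← Finset.insert_erase h3']
      simp only at h
      rw [h]
  rw [Finset.card_powersetCard] at h1
  exact h1.trans (Nat.choose_le_pow _ _)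

/-- If every covered vertex has large degree then the edge set is large. -/
lemma comb_core (hr : 2 ≤ r) (S : Finset (Edge n r)) (hS : S.Nonempty) (L : ℕ)
    (h : ∀ w ∈ verts S, L < deg S w) : L ^ r ≤ (r * S.card) ^ (r - 1) := by
  obtain ⟨e, he⟩ := hS
  have hene : e.1.Nonempty := by
    rw [← Finset.card_pos, e.2]
    omega
  obtain ⟨w, hw⟩ := hene
  have hwv : w ∈ verts S := mem_verts.mpr ⟨e, he, hw⟩
  have h1 : L ≤ (verts S).card ^ (r - 1) :=
    (h w hwv).le.trans (deg_le (by omega) S w)
  have h2 : (verts S).card * L ≤ r * S.card := by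
    rw [← sum_deg S]
    have := Finset.card_nsmul_le_sum (verts S) (deg S) L (fun u hu => (h u hu).le)
    simpa using this
  have hr1 : r = (r - 1) + 1 := by omega
  calc L ^ r = L ^ (r - 1) * L := by
        conv_lhs => rw [hr1]
        rw [pow_succ]
    _ ≤ L ^ (r - 1) * (verts S).card ^ (r - 1) := Nat.mul_le_mul_left _ h1
    _ = ((verts S).card * L) ^ (r - 1) := by rw [mul_pow, mul_comm]
    _ ≤ _ := Nat.pow_le_pow_left h2 _

lemma rpow_aux (hr : 2 ≤ r) (L : ℕ) :
    (((L : ℝ) ^ ((r : ℝ) / ((r : ℝ) - 1))) ^ (r - 1)) = (L : ℝ) ^ r := by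
  have hr1 : (1 : ℝ) < r := by exact_mod_cast (by omega : 1 < r)
  rw [← Real.rpow_natCast, ← Real.rpow_mul (Nat.cast_nonneg L)]
  have h1 : (((r - 1 : ℕ) : ℝ)) = (r : ℝ) - 1 := by
    rw [Nat.cast_sub (by omega)]
    simp
  rw [h1, div_mul_cancel₀ _ (by linarith), Real.rpow_natCast]

lemma low_degree_exists (hr : 2 ≤ r) (S : Finset (Edge n r)) (hS : S.Nonempty) (L : ℕ)
    (hsmall : (r : ℝ) * S.card < (L : ℝ) ^ ((r : ℝ) / ((r : ℝ) - 1))) :
    ∃ w ∈ verts S, deg S w ≤ L := by
  by_contra hcon
  have hcon' : ∀ w ∈ verts S, L < deg S w := fun w hw => not_le.mp (fun h => hcon ⟨w, hw, h⟩)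
  have h1 := comb_core hr S hS L hcon'
  have h2 : ((L : ℝ)) ^ r ≤ ((r : ℝ) * S.card) ^ (r - 1) := by
    exact_mod_cast h1
  have h3 : ((r : ℝ) * S.card) ^ (r - 1) < ((L : ℝ) ^ ((r : ℝ) / ((r : ℝ) - 1))) ^ (r - 1) :=
    pow_lt_pow_left₀ hsmall (by positivity) (by omega)
  rw [rpow_aux hr] at h3
  linarith

lemma deg_pos {S : Finset (Edge n r)} {w : Fin n} (hw : w ∈ verts S) : 1 ≤ deg S w := by
  obtain ⟨e, he, hwe⟩ := mem_verts.mp hw
  exact Finset.card_pos.mpr ⟨e, Finset.mem_filter.mpr ⟨he, hwe⟩⟩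

/-- The spectral bound: the total weight is controlled by the first moment of the spectral
sample. -/
theorem spectral_bound {p : ℝ} (hp : 0 < p) (hp1 : p < 1) (f : (Edge n r → Bool) → ℝ)
    (hf : ∀ x, f x = 0 ∨ f x = 1) (hinv : ∀ (σ : Equiv.Perm (Fin n)) x, f (x ∘ relabel σ) = f x)
    (hr : 2 ≤ r) (L q : ℕ) (hL : 1 ≤ L) (hq : 1 ≤ q) (hn : 2 * L ^ 2 * (q - 1) ≤ n - 1)
    (t : ℝ) (ht : 0 ≤ t) (htq : bC p ^ L ≤ t ^ 3 * q) :
    ∑ S ∈ univ.filter (fun S : Finset (Edge n r) => S ≠ ∅), coef p f S ^ 2 ≤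
      (4 * t * L * r + r / (L : ℝ) ^ ((r : ℝ) / ((r : ℝ) - 1))) *
        ∑ S : Finset (Edge n r), (S.card : ℝ) * coef p f S ^ 2 := by
  classical
  set a : Finset (Edge n r) → ℝ := fun S => coef p f S ^ 2 with ha
  have ha0 : ∀ S, 0 ≤ a S := fun S => sq_nonneg _
  set K : ℝ := ∑ S : Finset (Edge n r), (S.card : ℝ) * a S with hK
  have hK0 : 0 ≤ K := sum_nonneg fun S _ => mul_nonneg (Nat.cast_nonneg _) (ha0 S)
  set A : Fin n → ℝ := fun w => ∑ S : Finset (Edge n r), if w ∈ verts S then a S else 0 with hA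
  have hA0 : ∀ w, 0 ≤ A w := fun w => sum_nonneg fun S _ => by
    split_ifs
    · exact ha0 S
    · exact le_rfl
  have hr1 : (1 : ℝ) < r := by exact_mod_cast (by omega : 1 < r)
  set e : ℝ := (r : ℝ) / ((r : ℝ) - 1) with he
  have he2 : e ≤ 2 := by
    rw [he, div_le_iff₀ (by linarith)]
    have : (2 : ℝ) ≤ r := by exact_mod_cast hr
    linarith
  have hL1 : (1 : ℝ) ≤ L := by exact_mod_cast hL
  set Lam : ℝ := (L : ℝ) ^ e with hLam
  have hLam0 : 0 < Lam := Real.rpow_pos_of_pos (by linarith) _
  have hLam2 : Lam ≤ (L : ℝ) ^ 2 := by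
    have := Real.rpow_le_rpow_of_exponent_le hL1 he2
    simpa using this
  have hsumA : ∑ w, A w ≤ r * K := by
    calc ∑ w, A w = ∑ S : Finset (Edge n r), ∑ w, (if w ∈ verts S then a S else 0) :=
          Finset.sum_comm
      _ = ∑ S : Finset (Edge n r), ((verts S).card : ℝ) * a S := by
          refine sum_congr rfl fun S _ => ?_
          rw [← Finset.sum_filter, Finset.filter_mem_eq_inter, Finset.univ_inter,
            Finset.sum_const, nsmul_eq_mul]
      _ ≤ ∑ S : Finset (Edge n r), (r : ℝ) * ((S.card : ℝ) * a S) := by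
          refine sum_le_sum fun S _ => ?_
          rw [← mul_assoc]
          refine mul_le_mul_of_nonneg_right ?_ (ha0 S)
          exact_mod_cast card_verts_le S
      _ = r * K := by rw [hK, Finset.mul_sum]
  -- each set in the low degree class is bounded
  set B : Fin n → ℕ → Finset (Finset (Edge n r)) := fun w d =>
    univ.filter (fun S : Finset (Edge n r) => deg S w = d ∧ (verts S).card ≤ L ^ 2) with hB
  have hBbound : ∀ w, ∀ d ∈ Finset.Icc 1 L, ∑ S ∈ B w d, a S ≤ 4 * t * A w := by
    intro w d hd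
    obtain ⟨hd1, hd2⟩ := Finset.mem_Icc.mp hd
    refine low_degree_bound hp hp1 f hf hinv w d hd1 (L ^ 2) q (Nat.one_le_pow _ _ (by omega)) hq hn t ht ?_
    refine le_trans ?_ htq
    exact pow_le_pow_right₀ (by linarith [bC_ge hp hp1]) hd2
  have hsmall : ∑ S ∈ univ.filter (fun S : Finset (Edge n r) => S ≠ ∅ ∧ (r : ℝ) * S.card < Lam), a S
      ≤ 4 * t * L * r * K := by
    calc _ ≤ ∑ S ∈ univ.filter (fun S : Finset (Edge n r) => S ≠ ∅ ∧ (r : ℝ) * S.card < Lam),
            ∑ w, ∑ d ∈ Finset.Icc 1 L, (if S ∈ B w d then a S else 0) := by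
          refine sum_le_sum fun S hS => ?_
          obtain ⟨h1, h2⟩ := (Finset.mem_filter.mp hS).2
          have hne : S.Nonempty := Finset.nonempty_iff_ne_empty.mpr h1
          obtain ⟨w, hw, hdeg⟩ := low_degree_exists hr S hne L h2
          have hdw := deg_pos hw
          have hnn : ∀ w d, 0 ≤ (if S ∈ B w d then a S else 0) := by
            intro w d
            split_ifs
            · exact ha0 S
            · exact le_rfl
          have hmem : S ∈ B w (deg S w) := by
            refine Finset.mem_filter.mpr ⟨mem_univ _, rfl, ?_⟩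
            have h3 : (((verts S).card : ℕ) : ℝ) ≤ (L : ℝ) ^ 2 := by
              have h4 : (((verts S).card : ℕ) : ℝ) ≤ (r : ℝ) * S.card := by
                exact_mod_cast card_verts_le S
              linarith
            exact_mod_cast h3
          calc a S = (if S ∈ B w (deg S w) then a S else 0) := by rw [if_pos hmem]
            _ ≤ ∑ d ∈ Finset.Icc 1 L, (if S ∈ B w d then a S else 0) :=
                Finset.single_le_sum (f := fun d => if S ∈ B w d then a S else 0)
                  (fun d _ => hnn w d) (Finset.mem_Icc.mpr ⟨hdw, hdeg⟩)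
            _ ≤ ∑ w', ∑ d ∈ Finset.Icc 1 L, (if S ∈ B w' d then a S else 0) :=
                Finset.single_le_sum
                  (f := fun w' => ∑ d ∈ Finset.Icc 1 L, if S ∈ B w' d then a S else 0)
                  (fun w' _ => sum_nonneg fun d _ => hnn w' d) (mem_univ w)
      _ ≤ ∑ S : Finset (Edge n r),
            ∑ w, ∑ d ∈ Finset.Icc 1 L, (if S ∈ B w d then a S else 0) := by
          refine Finset.sum_le_sum_of_subset_of_nonneg (Finset.subset_univ _) fun S _ _ => ?_
          refine sum_nonneg fun w _ => sum_nonneg fun d _ => ?_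
          split_ifs
          · exact ha0 S
          · exact le_rfl
      _ = ∑ w, ∑ d ∈ Finset.Icc 1 L, ∑ S ∈ B w d, a S := by
          rw [Finset.sum_comm]
          refine sum_congr rfl fun w _ => ?_
          rw [Finset.sum_comm]
          refine sum_congr rfl fun d _ => ?_
          rw [← Finset.sum_filter, Finset.filter_mem_eq_inter, Finset.univ_inter]
      _ ≤ ∑ w, ∑ _d ∈ Finset.Icc 1 L, 4 * t * A w :=
          sum_le_sum fun w _ => sum_le_sum fun d hd => hBbound w d hd
      _ = 4 * t * L * ∑ w, A w := by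
          rw [Finset.mul_sum]
          refine sum_congr rfl fun w _ => ?_
          rw [Finset.sum_const, Nat.card_Icc, nsmul_eq_mul]
          simp only [Nat.add_sub_cancel]
          ring
      _ ≤ 4 * t * L * (r * K) := mul_le_mul_of_nonneg_left hsumA (by positivity)
      _ = _ := by ring
  have hlarge : ∑ S ∈ univ.filter (fun S : Finset (Edge n r) => S ≠ ∅ ∧ ¬ (r : ℝ) * S.card < Lam), a S
      ≤ r / Lam * K := by
    calc _ ≤ ∑ S ∈ univ.filter (fun S : Finset (Edge n r) => S ≠ ∅ ∧ ¬ (r : ℝ) * S.card < Lam),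
            r / Lam * ((S.card : ℝ) * a S) := by
          refine sum_le_sum fun S hS => ?_
          obtain ⟨_, h2⟩ := (Finset.mem_filter.mp hS).2
          have h3 : Lam ≤ (r : ℝ) * S.card := not_lt.mp h2
          have h4 : (1 : ℝ) ≤ r / Lam * (S.card : ℝ) := by
            rw [div_mul_eq_mul_div, le_div_iff₀ hLam0]
            linarith
          calc a S = 1 * a S := (one_mul _).symm
            _ ≤ (r / Lam * (S.card : ℝ)) * a S := mul_le_mul_of_nonneg_right h4 (ha0 S)
            _ = _ := by ring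
      _ ≤ ∑ S : Finset (Edge n r), r / Lam * ((S.card : ℝ) * a S) := by
          refine Finset.sum_le_sum_of_subset_of_nonneg (Finset.subset_univ _) fun S _ _ => ?_
          exact mul_nonneg (by positivity) (mul_nonneg (Nat.cast_nonneg _) (ha0 S))
      _ = r / Lam * K := by rw [hK, Finset.mul_sum]
  have hsplit : ∑ S ∈ univ.filter (fun S : Finset (Edge n r) => S ≠ ∅), a S
      = ∑ S ∈ univ.filter (fun S : Finset (Edge n r) => S ≠ ∅ ∧ (r : ℝ) * S.card < Lam), a S
        + ∑ S ∈ univ.filter (fun S : Finset (Edge n r) => S ≠ ∅ ∧ ¬ (r : ℝ) * S.card < Lam), a S := by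
    rw [← Finset.sum_filter_add_sum_filter_not (univ.filter (fun S : Finset (Edge n r) => S ≠ ∅))
      (fun S => (r : ℝ) * S.card < Lam), Finset.filter_filter, Finset.filter_filter]
  rw [hsplit]
  calc _ ≤ 4 * t * L * r * K + r / Lam * K := add_le_add hsmall hlarge
    _ = _ := by ring

end Vale.Agent.Lib.P063
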