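import Vale.Agent.Lib.P063.Main

/-!
The total influence form of the bound, for all `p` and all hypergraph properties.
-/

open Finset

set_option linter.unusedSectionVars false
set_option linter.unusedSimpArgs false
set_option linter.unusedVariables false
set_option linter.deprecated false

namespace Vale.Agent.Lib.P063

variable {n r : ℕ}

/-- The total influence `I_p(P)`: the sum over all edges `e` of the `μ_p` measure of the set of
hypergraphs `x` such that exactly one of `x` with `e` added and `x` with `e` removed lies in `P`. -/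
noncomputable def totalInfluence (p : ℝ) (P : Set (Edge n r → Bool)) : ℝ :=
  ∑ e : Edge n r, muP p {x | ¬ (Function.update x e true ∈ P ↔ Function.update x e false ∈ P)}

lemma inf_general {ι : Type*} [Fintype ι] [DecidableEq ι] {p : ℝ} (hp : 0 < p) (hp1 : p < 1)
    (f : (ι → Bool) → ℝ) (i : ι) :
    (∑ S : Finset ι, if i ∈ S then coef p f S ^ 2 else 0) =
      p * (1 - p) * ex p (fun x => (f (Function.update x i true)
        - f (Function.update x i false)) ^ 2) := by
  have h1 : (∑ S : Finset ι, if i ∈ S then coef p f S ^ 2 else 0)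
      = ex p (fun x => f x ^ 2) - ex p (fun x => f x * pc p {i} ∅ f x) := by
    rw [ex_mul_pc_empty hp hp1, ← sum_coef_sq hp hp1 f, ← Finset.sum_sub_distrib]
    refine sum_congr rfl fun S _ => ?_
    by_cases h : i ∈ S
    · have : ¬ Disjoint S {i} := by
        rw [Finset.disjoint_singleton_right]
        exact not_not.mpr h
      rw [if_pos h, if_neg this]
      ring
    · have : Disjoint S {i} := by
        rw [Finset.disjoint_singleton_right]
        exact h
      rw [if_neg h, if_pos this]
      ring
  rw [h1, ← ex_sub, ex_update p i, ← ex_mul_left]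
  refine ex_congr p fun x => ?_
  have e3 : ∀ b, pc p {i} ∅ f (Function.update x i b)
      = p * f (Function.update x i true) + (1 - p) * f (Function.update x i false) := by
    intro b
    rw [pc_single]
    simp only [Function.update_idem]
  simp only [e3, Function.update_self]
  ring

lemma totalInf_eq (p : ℝ) (hp : 0 < p) (hp1 : p < 1) (P : Set (Edge n r → Bool)) :
    totalInf p (indR P) = p * (1 - p) * totalInfluence p P := by
  unfold totalInf totalInfluence
  rw [Finset.mul_sum]
  have h1 : ∀ e : Edge n r, p * (1 - p) *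
      muP p {x | ¬ (Function.update x e true ∈ P ↔ Function.update x e false ∈ P)}
      = ∑ S : Finset (Edge n r), if e ∈ S then coef p (indR P) S ^ 2 else 0 := by
    intro e
    rw [inf_general hp hp1, ← ex_indR]
    congr 1
    refine ex_congr p fun x => ?_
    unfold indR
    by_cases h2 : Function.update x e true ∈ P <;> by_cases h3 : Function.update x e false ∈ P
    · rw [Set.indicator_of_notMem (by simp [h2, h3]), Set.indicator_of_mem h2,
        Set.indicator_of_mem h3]
      norm_num
    · rw [Set.indicator_of_mem (by simp [h2, h3]), Set.indicator_of_mem h2,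
        Set.indicator_of_notMem h3]
      norm_num
    · rw [Set.indicator_of_mem (by simp [h2, h3]), Set.indicator_of_notMem h2,
        Set.indicator_of_mem h3]
      norm_num
    · rw [Set.indicator_of_notMem (by simp [h2, h3]), Set.indicator_of_notMem h2,
        Set.indicator_of_notMem h3]
      norm_num
  simp_rw [h1]
  rw [Finset.sum_comm]
  refine sum_congr rfl fun S _ => ?_
  rw [← Finset.sum_filter, Finset.filter_mem_eq_inter, Finset.univ_inter, Finset.sum_const,
    nsmul_eq_mul]

/-- The influence bound for every `p` and every hypergraph property. -/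
theorem influence_main (r : ℕ) (hr : 2 ≤ r) :
    ∃ c : ℝ, 0 < c ∧ ∀ (n : ℕ), r ≤ n → ∀ P : Set (Edge n r → Bool), IsHypergraphProperty P →
      ∀ p : ℝ, 0 < p → p < 1 →
      c * (muP p P * (1 - muP p P)) * (Real.log n) ^ ((r : ℝ) / ((r : ℝ) - 1)) ≤
        totalInfluence p P := by
  have hr2 : (2 : ℝ) ≤ r := by exact_mod_cast hr
  refine ⟨1 / (3584 * r + 32000 ^ 2), by positivity, fun n hn P hP p hp hp1 => ?_⟩
  have hq : 0 < 1 - p := by linarith
  have hPi0 : 0 < p * (1 - p) := mul_pos hp hq
  have hPi1 : p * (1 - p) ≤ 1 := by nlinarith [sq_nonneg (p - 1 / 2)]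
  have hfb := indR_bool P
  have hinv : ∀ (σ : Equiv.Perm (Fin n)) x, indR P (x ∘ relabel σ) = indR P x := by
    intro σ x
    simp only [indR]
    by_cases h : x ∈ P
    · rw [Set.indicator_of_mem h, Set.indicator_of_mem ((hP σ x).mpr h)]
    · rw [Set.indicator_of_notMem h, Set.indicator_of_notMem (fun h2 => h ((hP σ x).mp h2))]
  have hvar := var_eq hp hp1 (indR P) hfb
  rw [ex_indR] at hvar
  set V := muP p P * (1 - muP p P) with hV
  have hV0 : 0 ≤ V := by
    rw [← hvar]
    exact sum_nonneg fun _ _ => sq_nonneg _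
  set I := totalInfluence p P with hI
  have hKI : totalInf p (indR P) = p * (1 - p) * I := totalInf_eq p hp hp1 P
  have hVK : V ≤ p * (1 - p) * I := by
    rw [← hKI, ← hvar]
    exact var_le_totalInf p (indR P)
  have hI0 : 0 ≤ I := by
    by_contra h
    have h1 : p * (1 - p) * I < 0 := mul_neg_of_pos_of_neg hPi0 (not_le.mp h)
    linarith
  have hVI : V ≤ I := by
    have h1 : p * (1 - p) * I ≤ 1 * I := mul_le_mul_of_nonneg_right hPi1 hI0
    linarith
  have hn2 : (2 : ℝ) ≤ n := by exact_mod_cast hr.trans hn
  set y := Real.log n with hydef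
  have hy0 : 0 < y := Real.log_pos (by linarith)
  set e : ℝ := (r : ℝ) / ((r : ℝ) - 1) with he
  have hye0 : 0 < y ^ e := Real.rpow_pos_of_pos hy0 _
  have he2 : e ≤ 2 := by
    rw [he, div_le_iff₀ (by linarith)]
    linarith
  have he0 : 0 ≤ e := div_nonneg (by linarith) (by linarith)
  have hr0 : (0 : ℝ) < 3584 * r := by positivity
  have hD0 : (0 : ℝ) < 3584 * r + 32000 ^ 2 := by positivity
  rw [div_mul_eq_mul_div, one_mul, div_mul_eq_mul_div, div_le_iff₀ hD0]
  by_cases hy : 32000 ≤ y
  · have h1 := totalInf_lower hp hp1 (indR P) hfb hinv hr hy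
    rw [hvar, hKI] at h1
    have h2 : p * (1 - p) * I / (p * (1 - p)) = I := by field_simp
    rw [h2] at h1
    have h3 : V * y ^ e ≤ I * (3584 * r) := by
      have h4 : V * (y ^ e / (3584 * r)) * (3584 * r) ≤ I * (3584 * r) :=
        mul_le_mul_of_nonneg_right h1 hr0.le
      have h5 : V * (y ^ e / (3584 * r)) * (3584 * r) = V * y ^ e := by field_simp
      linarith
    have h6 : 0 ≤ I * 32000 ^ 2 := by positivity
    calc V * y ^ e ≤ I * (3584 * r) := h3
      _ ≤ I * (3584 * r + 32000 ^ 2) := by linarith
  · have hy' : y < 32000 := not_le.mp hy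
    have hye : y ^ e ≤ 32000 ^ 2 := by
      have h3 : y ^ e ≤ (32000 : ℝ) ^ e := Real.rpow_le_rpow hy0.le hy'.le he0
      have h4 : (32000 : ℝ) ^ e ≤ (32000 : ℝ) ^ (2 : ℝ) :=
        Real.rpow_le_rpow_of_exponent_le (by norm_num) he2
      have h5 : (32000 : ℝ) ^ (2 : ℝ) = 32000 ^ 2 := by
        simpa using Real.rpow_natCast (32000 : ℝ) 2
      linarith
    have h6 : 0 ≤ I * (3584 * r) := by positivity
    calc V * y ^ e ≤ I * 32000 ^ 2 := mul_le_mul hVI hye hye0.le hI0
      _ ≤ I * (3584 * r + 32000 ^ 2) := by linarith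

end Vale.Agent.Lib.P063
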