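import Vale.Agent.Lib.P063.Bonami

/-!
The key inequality: weight on a single star of a function invariant under permutations of a
block of coordinates.
-/

open Finset

set_option linter.unusedSectionVars false
set_option linter.unusedSimpArgs false
set_option linter.unusedVariables false
set_option linter.deprecated false

namespace Vale.Agent.Lib.P063

variable {ι : Type*} [Fintype ι] [DecidableEq ι]

lemma ex_cs2 {p : ℝ} (hp : 0 ≤ p) (hp1 : p ≤ 1) (r F G : (ι → Bool) → ℝ)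
    (hF : ∀ x, 0 ≤ F x) (hG : ∀ x, 0 ≤ G x) (h : ∀ x, r x ^ 2 ≤ F x * G x) :
    (ex p r) ^ 2 ≤ ex p F * ex p G := by
  unfold ex
  refine Finset.sum_sq_le_sum_mul_sum_of_sq_le_mul _ (fun x _ => ?_) (fun x _ => ?_)
    (fun x _ => ?_)
  · exact mul_nonneg (wt_nonneg hp hp1 x) (hF x)
  · exact mul_nonneg (wt_nonneg hp hp1 x) (hG x)
  · have := h x
    have h0 := wt_nonneg hp hp1 x
    have : wt p x ^ 2 * r x ^ 2 ≤ wt p x ^ 2 * (F x * G x) :=
      mul_le_mul_of_nonneg_left (h x) (sq_nonneg _)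
    calc (wt p x * r x) ^ 2 = wt p x ^ 2 * r x ^ 2 := by ring
      _ ≤ wt p x ^ 2 * (F x * G x) := this
      _ = _ := by ring

/-- The inequality replacing Hoelder with exponents `4/3` and `4`. -/
lemma holder_aux {p : ℝ} (hp : 0 ≤ p) (hp1 : p ≤ 1) (D u : (ι → Bool) → ℝ)
    (hD : ∀ x, |D x| ≤ 1) :
    (ex p (fun x => D x * u x)) ^ 4 ≤
      (ex p (fun x => |D x|)) ^ 3 * ex p (fun x => u x ^ 4) := by
  set v := ex p (fun x => |D x|) with hv
  set X := ex p (fun x => |D x| * u x ^ 2) with hX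
  have hv0 : 0 ≤ v := ex_nonneg hp hp1 fun x => abs_nonneg _
  have hX0 : 0 ≤ X := ex_nonneg hp hp1 fun x => by positivity
  have h1 : (ex p (fun x => D x * u x)) ^ 2 ≤ v * X := by
    refine ex_cs2 hp hp1 _ _ _ (fun x => abs_nonneg _) (fun x => by positivity) (fun x => ?_)
    have : |D x| * (|D x| * u x ^ 2) = D x ^ 2 * u x ^ 2 := by
      rw [← mul_assoc, abs_mul_abs_self]
      ring
    rw [this]
    apply le_of_eq
    ring
  have h2 : X ^ 2 ≤ ex p (fun x => D x ^ 2) * ex p (fun x => u x ^ 4) := by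
    refine ex_cs2 hp hp1 _ _ _ (fun x => sq_nonneg _) (fun x => by positivity) (fun x => ?_)
    have : (|D x| * u x ^ 2) ^ 2 = |D x| ^ 2 * (u x ^ 2) ^ 2 := by ring
    rw [this, sq_abs]
    apply le_of_eq
    ring
  have h3 : ex p (fun x => D x ^ 2) ≤ v := by
    refine ex_le hp hp1 fun x => ?_
    rw [← sq_abs]
    have := abs_nonneg (D x)
    nlinarith [hD x]
  have h4 : 0 ≤ ex p (fun x => u x ^ 4) := ex_nonneg hp hp1 fun x => by positivity
  have h5 : X ^ 2 ≤ v * ex p (fun x => u x ^ 4) :=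
    h2.trans (mul_le_mul_of_nonneg_right h3 h4)
  calc (ex p (fun x => D x * u x)) ^ 4 = ((ex p (fun x => D x * u x)) ^ 2) ^ 2 := by ring
    _ ≤ (v * X) ^ 2 := pow_le_pow_left₀ (sq_nonneg _) h1 2
    _ = v ^ 2 * X ^ 2 := by ring
    _ ≤ v ^ 2 * (v * ex p (fun x => u x ^ 4)) := mul_le_mul_of_nonneg_left h5 (sq_nonneg _)
    _ = _ := by ring

lemma ex_bounds {p : ℝ} (hp : 0 ≤ p) (hp1 : p ≤ 1) (G : (ι → Bool) → ℝ)
    (hG0 : ∀ y, 0 ≤ G y) (hG1 : ∀ y, G y ≤ 1) : 0 ≤ ex p G ∧ ex p G ≤ 1 := by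
  refine ⟨ex_nonneg hp hp1 hG0, ?_⟩
  have := ex_le hp hp1 (a := G) (b := fun _ => 1) hG1
  rwa [ex_const] at this

lemma pc_empty (p : ℝ) (A : Finset ι) (G : (ι → Bool) → ℝ) (x : ι → Bool) :
    pc p A ∅ G x = ex p (fun y => G (mix A y x)) := by
  unfold pc
  refine ex_congr p fun y => ?_
  rw [chi_empty, mul_one]

/-- The level inequality on one block of coordinates. -/
lemma level_bound {p : ℝ} (hp : 0 < p) (hp1 : p < 1) (G : (ι → Bool) → ℝ)
    (hG0 : ∀ y, 0 ≤ G y) (hG1 : ∀ y, G y ≤ 1) (Y : Finset ι) (QQ : Finset (Finset ι)) (d : ℕ)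
    (hQQ : ∀ Q ∈ QQ, Q ⊆ Y ∧ Q.card ≤ d ∧ Q ≠ ∅) :
    (∑ Q ∈ QQ, coef p G Q ^ 2) ^ 2 ≤
      bC p ^ d * (ex p (fun y => |pc p Yᶜ ∅ G y - ex p G|)) ^ 3 := by
  classical
  have hpl : 0 ≤ p := hp.le
  have hpu : p ≤ 1 := hp1.le
  set a : Finset ι → ℝ := fun Q => if Q ∈ QQ then coef p G Q else 0 with ha
  set u : (ι → Bool) → ℝ := polyOn p Y a with hu
  set b2 := ∑ Q ∈ QQ, coef p G Q ^ 2 with hb2
  have hb0 : 0 ≤ b2 := sum_nonneg fun _ _ => sq_nonneg _
  have hsub : QQ ⊆ Y.powerset := fun Q hQ => Finset.mem_powerset.mpr (hQQ Q hQ).1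
  have hform : ∀ x, u x = ∑ Q ∈ QQ, coef p G Q * chi p Q x := by
    intro x
    rw [hu]
    unfold polyOn
    rw [← Finset.sum_subset hsub]
    · refine sum_congr rfl fun Q hQ => ?_
      simp [ha, hQ]
    · intro Q _ hQ
      simp [ha, hQ]
  -- second moment
  have h2 : ex p (fun x => u x ^ 2) = b2 := by
    have e1 : ∀ x, u x ^ 2 = ∑ Q ∈ QQ, ∑ Q' ∈ QQ, coef p G Q * coef p G Q' *
        (chi p Q x * chi p Q' x) := by
      intro x
      rw [hform, pow_two, Finset.sum_mul_sum]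
      exact sum_congr rfl fun Q _ => sum_congr rfl fun Q' _ => by ring
    simp_rw [e1]
    rw [ex_sum]
    refine sum_congr rfl fun Q hQ => ?_
    rw [ex_sum]
    simp_rw [ex_mul_left, ex_chi_mul_chi hp hp1]
    simp only [mul_ite, mul_one, mul_zero, Finset.sum_ite_eq, hQ, if_true]
    ring
  -- mean zero
  have h3 : ex p u = 0 := by
    have e1 : ex p u = ex p (fun x => ∑ Q ∈ QQ, coef p G Q * chi p Q x) := ex_congr p hform
    rw [e1, ex_sum]
    refine sum_eq_zero fun Q hQ => ?_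
    rw [ex_mul_left, ex_chi hp hp1, if_neg (hQQ Q hQ).2.2, mul_zero]
  -- correlation
  set xi : (ι → Bool) → ℝ := pc p Yᶜ ∅ G with hxi
  have h4 : ex p (fun x => xi x * u x) = b2 := by
    have e1 : ∀ x, xi x * u x = ∑ Q ∈ QQ, coef p G Q * (xi x * chi p Q x) := by
      intro x
      rw [hform, Finset.mul_sum]
      exact sum_congr rfl fun Q _ => by ring
    simp_rw [e1]
    rw [ex_sum]
    refine sum_congr rfl fun Q hQ => ?_
    rw [ex_mul_left]
    have e2 : ex p (fun x => xi x * chi p Q x) = coef p xi Q := rfl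
    rw [e2, hxi, coef_pc hp hp1 (Finset.empty_subset _) G Q]
    have hd : Disjoint Q Yᶜ := Finset.disjoint_left.mpr
      (fun i hi hi' => (Finset.mem_compl.mp hi') ((hQQ Q hQ).1 hi))
    rw [if_pos hd, Finset.empty_union]
    ring
  set mu := ex p G with hmu
  have hmu01 := ex_bounds hpl hpu G hG0 hG1
  have h5 : ex p (fun x => (xi x - mu) * u x) = b2 := by
    have e1 : ∀ x, (xi x - mu) * u x = xi x * u x - mu * u x := fun x => by ring
    simp_rw [e1]
    rw [ex_sub, h4, ex_mul_left, h3]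
    ring
  have hD : ∀ x, |xi x - mu| ≤ 1 := by
    intro x
    have e1 : xi x = ex p (fun y => G (mix Yᶜ y x)) := pc_empty p _ G x
    have e2 := ex_bounds hpl hpu (fun y => G (mix Yᶜ y x)) (fun y => hG0 _) (fun y => hG1 _)
    rw [← e1] at e2
    rw [abs_le]
    constructor <;> linarith [e2.1, e2.2, hmu01.1, hmu01.2]
  have h6 := holder_aux hpl hpu (fun x => xi x - mu) u hD
  rw [h5] at h6
  set v := ex p (fun x => |xi x - mu|) with hv
  have hv0 : 0 ≤ v := ex_nonneg hpl hpu fun x => abs_nonneg _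
  have h7 : ex p (fun x => u x ^ 4) ≤ bC p ^ d * b2 ^ 2 := by
    have := bonami hp hp1 Y d a (by
      intro Q _ hlt
      by_cases hQ : Q ∈ QQ
      · exact absurd (hQQ Q hQ).2.1 (by omega)
      · simp [ha, hQ])
    rwa [h2] at this
  have hCd : 0 ≤ bC p ^ d := pow_nonneg (by linarith [bC_ge hp hp1]) d
  have h8 : b2 ^ 4 ≤ v ^ 3 * (bC p ^ d * b2 ^ 2) :=
    h6.trans (mul_le_mul_of_nonneg_left h7 (by positivity))
  by_cases hb : b2 = 0
  · rw [hb]
    have : 0 ≤ bC p ^ d * v ^ 3 := by positivity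
    simpa using this
  · have hb' : 0 < b2 ^ 2 := by positivity
    have h9 : b2 ^ 2 * b2 ^ 2 ≤ (bC p ^ d * v ^ 3) * b2 ^ 2 := by
      calc b2 ^ 2 * b2 ^ 2 = b2 ^ 4 := by ring
        _ ≤ v ^ 3 * (bC p ^ d * b2 ^ 2) := h8
        _ = _ := by ring
    exact le_of_mul_le_mul_right h9 hb'

/-! ### Permutations of the coordinates -/

lemma wt_comp (p : ℝ) (τ : Equiv.Perm ι) (y : ι → Bool) : wt p (y ∘ τ) = wt p y := by
  unfold wt
  exact Equiv.prod_comp τ (fun i => w1 p (y i))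

lemma ex_comp (p : ℝ) (τ : Equiv.Perm ι) (h : (ι → Bool) → ℝ) :
    ex p (fun y => h (y ∘ τ)) = ex p h := by
  unfold ex
  have e := Equiv.sum_comp (Equiv.arrowCongr τ.symm (Equiv.refl Bool))
    (fun z : ι → Bool => wt p z * h z)
  rw [← e]
  refine sum_congr rfl fun y _ => ?_
  have e2 : (Equiv.arrowCongr τ.symm (Equiv.refl Bool)) y = y ∘ τ := by
    funext i
    simp [Equiv.arrowCongr]
  rw [e2, wt_comp]

lemma chi_map (p : ℝ) (τ : Equiv.Perm ι) (Q : Finset ι) (y : ι → Bool) :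
    chi p (Q.map τ.toEmbedding) y = chi p Q (y ∘ τ) := by
  unfold chi
  rw [Finset.prod_map]
  rfl

lemma coef_map (p : ℝ) (G : (ι → Bool) → ℝ) (τ : Equiv.Perm ι) (hG : ∀ y, G (y ∘ τ) = G y)
    (Q : Finset ι) : coef p G (Q.map τ.toEmbedding) = coef p G Q := by
  unfold coef
  rw [← ex_comp p τ (fun x => G x * chi p Q x)]
  refine ex_congr p fun y => ?_
  rw [chi_map, hG]

/-- Bessel for a family of images under symmetries. -/
lemma sym_bound {p : ℝ} (hp : 0 < p) (hp1 : p < 1) (G : (ι → Bool) → ℝ)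
    (hG0 : ∀ y, 0 ≤ G y) (hG1 : ∀ y, G y ≤ 1) {α : Type*} [DecidableEq α] (J : Finset α)
    (τ : α → Equiv.Perm ι) (hinv : ∀ j ∈ J, ∀ y, G (y ∘ τ j) = G y) (QQ : Finset (Finset ι))
    (hinj : Set.InjOn (fun z : α × Finset ι => z.2.map (τ z.1).toEmbedding)
      (↑(J ×ˢ QQ) : Set (α × Finset ι))) :
    (J.card : ℝ) * ∑ Q ∈ QQ, coef p G Q ^ 2 ≤ 1 := by
  have hpl : 0 ≤ p := hp.le
  have hpu : p ≤ 1 := hp1.le
  have e1 : (J.card : ℝ) * ∑ Q ∈ QQ, coef p G Q ^ 2
      = ∑ z ∈ J ×ˢ QQ, coef p G (z.2.map (τ z.1).toEmbedding) ^ 2 := by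
    rw [Finset.sum_product]
    rw [← nsmul_eq_mul, ← Finset.sum_const]
    refine sum_congr rfl fun j hj => sum_congr rfl fun Q _ => ?_
    rw [coef_map p G (τ j) (hinv j hj)]
  rw [e1]
  rw [← Finset.sum_image (f := fun S => coef p G S ^ 2) hinj]
  calc _ ≤ ∑ S : Finset ι, coef p G S ^ 2 :=
        Finset.sum_le_sum_of_subset_of_nonneg (Finset.subset_univ _) (fun _ _ _ => sq_nonneg _)
    _ = ex p (fun x => G x ^ 2) := sum_coef_sq hp hp1 G
    _ ≤ 1 := by
        have := ex_le hpl hpu (a := fun x => G x ^ 2) (b := fun _ => 1)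
          (fun x => by nlinarith [hG0 x, hG1 x])
        rwa [ex_const] at this

lemma mix_comp (T : Finset ι) (τ : Equiv.Perm ι) (hfix : ∀ i, i ∉ T → τ i = i)
    (y x : ι → Bool) : mix T (y ∘ τ) x = (mix T y x) ∘ τ := by
  funext i
  simp only [mix, Function.comp]
  by_cases h : i ∈ T
  · have h2 : τ i ∈ T := by
      by_contra h3
      have h4 := hfix _ h3
      have h5 := τ.injective h4
      exact h3 (by rw [h5]; exact h)
    simp [h, h2]
  · rw [hfix i h]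

/-- The expected block variation. -/
lemma ex_block_variation {p : ℝ} (hp : 0 < p) (hp1 : p < 1) (f : (ι → Bool) → ℝ)
    (hf : ∀ x, f x = 0 ∨ f x = 1) (Y : Finset ι) :
    ex p (fun u => ex p (fun y => |f (mix Y y u) - f u|)) =
      2 * ∑ S : Finset ι, if Disjoint S Y then 0 else coef p f S ^ 2 := by
  have e0 : ∀ a b : ℝ, (a = 0 ∨ a = 1) → (b = 0 ∨ b = 1) → |a - b| = a ^ 2 - 2 * (b * a) + b ^ 2 := by
    intro a b ha hb
    rcases ha with rfl | rfl <;> rcases hb with rfl | rfl <;> norm_num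
  have e1 : ∀ u : ι → Bool, ex p (fun y => |f (mix Y y u) - f u|)
      = ex p (fun y => f (mix Y y u) ^ 2) - 2 * (f u * pc p Y ∅ f u) + f u ^ 2 := by
    intro u
    have e3 : ex p (fun y => |f (mix Y y u) - f u|) = ex p (fun y =>
        (f (mix Y y u) ^ 2 - 2 * (f u * f (mix Y y u))) + f u ^ 2) :=
      ex_congr p fun y => e0 _ _ (hf _) (hf _)
    rw [e3, ex_add, ex_const, ex_sub, ex_mul_left, ex_mul_left, pc_empty]
  simp_rw [e1]
  rw [ex_add, ex_sub, ex_mul_left, ex_avg p Y (fun x => f x ^ 2), ex_mul_pc_empty hp hp1,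
    ← sum_coef_sq hp hp1 f]
  have e2 : ∑ S : Finset ι, coef p f S ^ 2
      = (∑ S : Finset ι, if Disjoint S Y then coef p f S ^ 2 else 0)
        + ∑ S : Finset ι, if Disjoint S Y then 0 else coef p f S ^ 2 := by
    rw [← Finset.sum_add_distrib]
    refine sum_congr rfl fun S _ => ?_
    split_ifs <;> ring
  rw [e2]
  ring

/-- The expected variation of the restrictions. -/
lemma ex_restrict_variation {p : ℝ} (hp : 0 < p) (hp1 : p < 1) (f : (ι → Bool) → ℝ)
    (hf : ∀ x, f x = 0 ∨ f x = 1) (T Y : Finset ι) (hYT : Y ⊆ T) :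
    ex p (fun x => ex p (fun y =>
        |pc p Yᶜ ∅ (fun y => f (mix T y x)) y - ex p (fun y => f (mix T y x))|)) ≤
      2 * ∑ S : Finset ι, if Disjoint S Y then 0 else coef p f S ^ 2 := by
  have hpl : 0 ≤ p := hp.le
  have hpu : p ≤ 1 := hp1.le
  rw [← ex_block_variation hp hp1 f hf Y]
  set Phi : (ι → Bool) → ℝ := fun u => ex p (fun y => |f (mix Y y u) - f u|) with hPhi
  rw [← ex_avg p T Phi]
  refine ex_le hpl hpu fun x => ?_
  have e1 : ∀ y : ι → Bool,
      |pc p Yᶜ ∅ (fun y => f (mix T y x)) y - ex p (fun y => f (mix T y x))| ≤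
      ex p (fun y' => |f (mix Y y (mix T y' x)) - f (mix T y' x)|) := by
    intro y
    rw [pc_empty, ← ex_sub]
    refine (ex_abs_le hpl hpu _).trans (le_of_eq ?_)
    refine ex_congr p fun y' => ?_
    have : mix T (mix Yᶜ y' y) x = mix Y y (mix T y' x) := by
      funext i
      by_cases h1 : i ∈ Y
      · simp [mix, h1, hYT h1]
      · simp [mix, h1]
    rw [this]
  calc _ ≤ ex p (fun y => ex p (fun y' => |f (mix Y y (mix T y' x)) - f (mix T y' x)|)) :=
        ex_le hpl hpu e1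
    _ = ex p (fun y' => Phi (mix T y' x)) := by
        rw [ex_comm]

/-- The key inequality. -/
theorem key_ineq {p : ℝ} (hp : 0 < p) (hp1 : p < 1) (f : (ι → Bool) → ℝ)
    (hf : ∀ x, f x = 0 ∨ f x = 1) (T Y : Finset ι) (hYT : Y ⊆ T) {α : Type*} [DecidableEq α]
    (J : Finset α) (τ : α → Equiv.Perm ι) (hfix : ∀ j ∈ J, ∀ i, i ∉ T → τ j i = i)
    (hinv : ∀ j ∈ J, ∀ x, f (x ∘ τ j) = f x) (d : ℕ) (QQ : Finset (Finset ι))
    (hQQ : ∀ Q ∈ QQ, Q ⊆ Y ∧ Q.card ≤ d ∧ Q ≠ ∅)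
    (hinj : Set.InjOn (fun z : α × Finset ι => z.2.map (τ z.1).toEmbedding)
      (↑(J ×ˢ QQ) : Set (α × Finset ι)))
    (t : ℝ) (ht : 0 ≤ t) (hJ : 0 < J.card) (htq : bC p ^ d ≤ t ^ 3 * J.card) :
    ∑ Q ∈ QQ, ∑ S ∈ univ.filter (fun S : Finset ι => S ∩ T = Q), coef p f S ^ 2 ≤
      2 * t * ∑ S : Finset ι, if Disjoint S Y then 0 else coef p f S ^ 2 := by
  have hpl : 0 ≤ p := hp.le
  have hpu : p ≤ 1 := hp1.le
  have hf0 : ∀ x, 0 ≤ f x := fun x => by rcases hf x with h | h <;> rw [h] <;> norm_num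
  have hf1 : ∀ x, f x ≤ 1 := fun x => by rcases hf x with h | h <;> rw [h] <;> norm_num
  set U : (ι → Bool) → ℝ := fun x => ∑ Q ∈ QQ, pc p T Q f x ^ 2 with hU
  set V : (ι → Bool) → ℝ := fun x => ex p (fun y =>
        |pc p Yᶜ ∅ (fun y => f (mix T y x)) y - ex p (fun y => f (mix T y x))|) with hV
  have hpoint : ∀ x, U x ≤ t * V x := by
    intro x
    set G : (ι → Bool) → ℝ := fun y => f (mix T y x) with hG
    have hcoef : ∀ Q, coef p G Q = pc p T Q f x := fun Q => rfl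
    have hGinv : ∀ j ∈ J, ∀ y, G (y ∘ τ j) = G y := by
      intro j hj y
      simp only [hG]
      rw [mix_comp T (τ j) (hfix j hj), hinv j hj]
    have h1 := level_bound hp hp1 G (fun y => hf0 _) (fun y => hf1 _) Y QQ d hQQ
    have h2 := sym_bound hp hp1 G (fun y => hf0 _) (fun y => hf1 _) J τ hGinv QQ hinj
    simp_rw [hcoef] at h1 h2
    have hU0 : 0 ≤ U x := sum_nonneg fun _ _ => sq_nonneg _
    have hV0 : 0 ≤ V x := ex_nonneg hpl hpu fun _ => abs_nonneg _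
    have h1' : U x ^ 2 ≤ bC p ^ d * V x ^ 3 := h1
    have h2' : (J.card : ℝ) * U x ≤ 1 := h2
    have hq : (0 : ℝ) < J.card := by exact_mod_cast hJ
    have h3 : U x ^ 3 * J.card ≤ (t * V x) ^ 3 * J.card := by
      calc U x ^ 3 * J.card = U x ^ 2 * ((J.card : ℝ) * U x) := by ring
        _ ≤ U x ^ 2 * 1 := mul_le_mul_of_nonneg_left h2' (sq_nonneg _)
        _ = U x ^ 2 := mul_one _
        _ ≤ bC p ^ d * V x ^ 3 := h1'
        _ ≤ (t ^ 3 * J.card) * V x ^ 3 := mul_le_mul_of_nonneg_right htq (by positivity)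
        _ = _ := by ring
    have h4 : U x ^ 3 ≤ (t * V x) ^ 3 := le_of_mul_le_mul_right h3 hq
    exact (pow_le_pow_iff_left₀ hU0 (by positivity) (by norm_num)).mp h4
  have hexU : ∑ Q ∈ QQ, ∑ S ∈ univ.filter (fun S : Finset ι => S ∩ T = Q), coef p f S ^ 2
      = ex p U := by
    rw [hU, ex_sum]
    refine sum_congr rfl fun Q hQ => ?_
    rw [ex_pc_sq hp hp1 ((hQQ Q hQ).1.trans hYT)]
  rw [hexU]
  calc ex p U ≤ ex p (fun x => t * V x) := ex_le hpl hpu hpoint
    _ = t * ex p V := ex_mul_left p t V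
    _ ≤ t * (2 * ∑ S : Finset ι, if Disjoint S Y then 0 else coef p f S ^ 2) :=
        mul_le_mul_of_nonneg_left (ex_restrict_variation hp hp1 f hf T Y hYT) ht
    _ = _ := by ring

end Vale.Agent.Lib.P063
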