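import Vale.Agent.Lib.P063.Key

/-!
The Margulis-Russo formula for monotone functions on the biased cube, in spectral form.
-/

open Finset

set_option linter.unusedSectionVars false
set_option linter.unusedSimpArgs false
set_option linter.unusedVariables false
set_option linter.deprecated false

namespace Vale.Agent.Lib.P063

variable {ι : Type*} [Fintype ι] [DecidableEq ι]

lemma hasDerivAt_w1 (p : ℝ) (b : Bool) :
    HasDerivAt (fun q : ℝ => w1 q b) (if b then 1 else -1) p := by
  cases b
  · simp only [w1, Bool.false_eq_true, if_false]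
    simpa using (hasDerivAt_id p).const_sub 1
  · simp only [w1, if_true]
    exact hasDerivAt_id p

lemma w1_phi {p : ℝ} (hp : 0 < p) (hp1 : p < 1) (b : Bool) :
    w1 p b * (phi p b / Real.sqrt (p * (1 - p))) = if b then 1 else -1 := by
  have hs := sqrt_pos_aux hp hp1
  have hs2 := sqrt_sq_aux hp hp1
  cases b <;> simp only [w1, phi, Bool.false_eq_true, if_true, if_false]
  · field_simp
    try rw [hs2]
    try ring
  · field_simp
    try rw [hs2]
    try ring

lemma hasDerivAt_wt {p : ℝ} (hp : 0 < p) (hp1 : p < 1) (x : ι → Bool) :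
    HasDerivAt (fun q : ℝ => wt q x)
      (wt p x * ((∑ i, phi p (x i)) / Real.sqrt (p * (1 - p)))) p := by
  have h := HasDerivAt.fun_finsetProd (u := (univ : Finset ι)) (x := p)
    (f := fun i q => w1 q (x i)) (f' := fun i => if x i then (1 : ℝ) else -1)
    (fun i _ => hasDerivAt_w1 p (x i))
  have h2 : HasDerivAt (fun q : ℝ => wt q x) _ p := h
  refine h2.congr_deriv ?_
  rw [Finset.sum_div, Finset.mul_sum]
  refine sum_congr rfl fun i _ => ?_
  rw [smul_eq_mul, ← w1_phi hp hp1 (x i)]
  unfold wt
  rw [← Finset.prod_erase_mul univ _ (mem_univ i)]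
  ring

lemma chi_singleton (p : ℝ) (i : ι) (x : ι → Bool) : chi p {i} x = phi p (x i) := by
  simp [chi]

lemma hasDerivAt_ex {p : ℝ} (hp : 0 < p) (hp1 : p < 1) (f : (ι → Bool) → ℝ) :
    HasDerivAt (fun q : ℝ => ex q f)
      ((∑ i, coef p f {i}) / Real.sqrt (p * (1 - p))) p := by
  have h := HasDerivAt.fun_sum (u := (univ : Finset (ι → Bool))) (x := p)
    (A := fun x q => wt q x * f x)
    (A' := fun x => (wt p x * ((∑ i, phi p (x i)) / Real.sqrt (p * (1 - p)))) * f x)
    (fun x _ => (hasDerivAt_wt hp hp1 x).mul_const (f x))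
  have h2 : HasDerivAt (fun q : ℝ => ex q f) _ p := h
  refine h2.congr_deriv ?_
  unfold coef ex
  simp only [Finset.sum_div, Finset.mul_sum, Finset.sum_mul]
  rw [Finset.sum_comm]
  refine sum_congr rfl fun x _ => sum_congr rfl fun i _ => ?_
  rw [chi_singleton]
  ring

lemma continuous_ex (f : (ι → Bool) → ℝ) : Continuous (fun q : ℝ => ex q f) := by
  unfold ex wt
  refine continuous_finset_sum _ fun x _ => ?_
  refine (continuous_finset_prod _ fun i _ => ?_).mul continuous_const
  cases h : x i <;> simp only [w1, Bool.false_eq_true, if_true, if_false] <;> fun_prop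

/-- The total influence in spectral form. -/
noncomputable def totalInf (p : ℝ) (f : (ι → Bool) → ℝ) : ℝ :=
  ∑ S : Finset ι, (S.card : ℝ) * coef p f S ^ 2

lemma pc_single (p : ℝ) (i : ι) (f : (ι → Bool) → ℝ) (x : ι → Bool) :
    pc p {i} ∅ f x = p * f (Function.update x i true) + (1 - p) * f (Function.update x i false) := by
  rw [pc_empty]
  simp_rw [mix_singleton]
  exact ex_coord p i (fun b => f (Function.update x i b))

/-- For a monotone Boolean function the influence of a coordinate is given by the level one
coefficient. -/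
lemma inf_eq {p : ℝ} (hp : 0 < p) (hp1 : p < 1) (f : (ι → Bool) → ℝ)
    (hf : ∀ x, f x = 0 ∨ f x = 1) (hmono : ∀ x y : ι → Bool, (∀ i, x i = true → y i = true) → f x ≤ f y)
    (i : ι) :
    (∑ S : Finset ι, if i ∈ S then coef p f S ^ 2 else 0) =
      Real.sqrt (p * (1 - p)) * coef p f {i} := by
  have hs := sqrt_pos_aux hp hp1
  have hs2 := sqrt_sq_aux hp hp1
  set s := Real.sqrt (p * (1 - p)) with hsdef
  -- left side
  have h1 : (∑ S : Finset ι, if i ∈ S then coef p f S ^ 2 else 0)
      = ex p (fun x => f x ^ 2) - ex p (fun x => f x * pc p {i} ∅ f x) := by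
    rw [ex_mul_pc_empty hp hp1, ← sum_coef_sq hp hp1 f, ← Finset.sum_sub_distrib]
    refine sum_congr rfl fun S _ => ?_
    by_cases h : i ∈ S
    · have : ¬ Disjoint S {i} := by
        rw [Finset.disjoint_singleton_right]
        exact not_not.mpr h
      rw [if_pos h, if_neg this]
      ring
    · have : Disjoint S {i} := by
        rw [Finset.disjoint_singleton_right]
        exact h
      rw [if_neg h, if_pos this]
      ring
  rw [h1, ← ex_sub, ex_update p i]
  -- right side
  have h2 : coef p f {i} = ex p (fun x => s * (f (Function.update x i true)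
      - f (Function.update x i false))) := by
    unfold coef
    rw [ex_update p i]
    refine ex_congr p fun x => ?_
    simp only [chi_singleton, Function.update_self]
    have e1 : p * phi p true = s := by
      simp only [phi, if_true]
      rw [← hsdef]
      field_simp
      try rw [hsdef, hs2]
    have e2 : (1 - p) * phi p false = -s := by
      simp only [phi, Bool.false_eq_true, if_false]
      rw [← hsdef]
      field_simp
      try rw [hsdef, hs2]
      try ring
    calc p * (f (Function.update x i true) * phi p true)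
          + (1 - p) * (f (Function.update x i false) * phi p false)
        = f (Function.update x i true) * (p * phi p true)
          + f (Function.update x i false) * ((1 - p) * phi p false) := by ring
      _ = _ := by rw [e1, e2]; ring
  rw [h2, ← ex_mul_left]
  refine ex_congr p fun x => ?_
  have e3 : ∀ b, pc p {i} ∅ f (Function.update x i b)
      = p * f (Function.update x i true) + (1 - p) * f (Function.update x i false) := by
    intro b
    rw [pc_single]
    simp only [Function.update_idem]
  simp only [e3]
  set a := f (Function.update x i true) with ha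
  set b := f (Function.update x i false) with hb
  have hab : b ≤ a := by
    apply hmono
    intro j hj
    by_cases hji : j = i
    · subst hji
      simp
    · rwa [Function.update_of_ne hji] at hj ⊢
  have hsq : (a - b) ^ 2 = a - b := by
    rcases hf (Function.update x i true) with h3 | h3 <;>
      rcases hf (Function.update x i false) with h4 | h4
    · rw [← ha] at h3
      rw [← hb] at h4
      rw [h3, h4]
      norm_num
    · rw [← ha] at h3
      rw [← hb] at h4
      rw [h3, h4] at hab
      norm_num at hab
    · rw [← ha] at h3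
      rw [← hb] at h4
      rw [h3, h4]
      norm_num
    · rw [← ha] at h3
      rw [← hb] at h4
      rw [h3, h4]
      norm_num
  have e4 : p * (a ^ 2 - a * (p * a + (1 - p) * b)) + (1 - p) * (b ^ 2 - b * (p * a + (1 - p) * b))
      = p * (1 - p) * (a - b) ^ 2 := by ring
  rw [e4, hsq]
  calc p * (1 - p) * (a - b) = s ^ 2 * (a - b) := by rw [hs2]
    _ = _ := by ring

/-- The spectral Margulis-Russo formula. -/
theorem hasDerivAt_ex_mono {p : ℝ} (hp : 0 < p) (hp1 : p < 1) (f : (ι → Bool) → ℝ)
    (hf : ∀ x, f x = 0 ∨ f x = 1)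
    (hmono : ∀ x y : ι → Bool, (∀ i, x i = true → y i = true) → f x ≤ f y) :
    HasDerivAt (fun q : ℝ => ex q f) (totalInf p f / (p * (1 - p))) p := by
  have hs := sqrt_pos_aux hp hp1
  have hs2 := sqrt_sq_aux hp hp1
  have h := hasDerivAt_ex hp hp1 f
  refine h.congr_deriv ?_
  have h1 : totalInf p f = Real.sqrt (p * (1 - p)) * ∑ i, coef p f {i} := by
    unfold totalInf
    rw [Finset.mul_sum]
    simp_rw [← inf_eq hp hp1 f hf hmono]
    rw [Finset.sum_comm]
    refine sum_congr rfl fun S _ => ?_
    rw [← Finset.sum_filter, Finset.filter_mem_eq_inter, Finset.univ_inter, Finset.sum_const,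
      nsmul_eq_mul]
  rw [h1]
  have e : p * (1 - p) = Real.sqrt (p * (1 - p)) ^ 2 := hs2.symm
  set s := Real.sqrt (p * (1 - p)) with hsdef
  rw [e]
  field_simp

lemma var_eq {p : ℝ} (hp : 0 < p) (hp1 : p < 1) (f : (ι → Bool) → ℝ)
    (hf : ∀ x, f x = 0 ∨ f x = 1) :
    ∑ S ∈ univ.filter (fun S : Finset ι => S ≠ ∅), coef p f S ^ 2 = ex p f * (1 - ex p f) := by
  rw [Finset.filter_ne', Finset.sum_erase_eq_sub (mem_univ _), sum_coef_sq hp hp1, coef_empty]
  have : ex p (fun x => f x ^ 2) = ex p f := by
    refine ex_congr p fun x => ?_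
    rcases hf x with h | h <;> rw [h] <;> norm_num
  rw [this]
  ring

lemma var_le_totalInf (p : ℝ) (f : (ι → Bool) → ℝ) :
    ∑ S ∈ univ.filter (fun S : Finset ι => S ≠ ∅), coef p f S ^ 2 ≤ totalInf p f := by
  unfold totalInf
  calc _ ≤ ∑ S ∈ univ.filter (fun S : Finset ι => S ≠ ∅), (S.card : ℝ) * coef p f S ^ 2 := by
        refine sum_le_sum fun S hS => ?_
        have h1 : S ≠ ∅ := (Finset.mem_filter.mp hS).2
        have h2 : (1 : ℝ) ≤ S.card := by
          exact_mod_cast Finset.card_pos.mpr (Finset.nonempty_iff_ne_empty.mpr h1)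
        nlinarith [sq_nonneg (coef p f S)]
    _ ≤ _ := Finset.sum_le_sum_of_subset_of_nonneg (Finset.subset_univ _)
        fun S _ _ => mul_nonneg (Nat.cast_nonneg _) (sq_nonneg _)

end Vale.Agent.Lib.P063
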