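import Vale.Agent.Lib.P063.Hyper
import Vale.Agent.Lib.P063.Russo

/-!
The derivative bound and the width bound.
-/

open Finset

set_option linter.unusedSectionVars false
set_option linter.unusedSimpArgs false
set_option linter.unusedVariables false
set_option linter.deprecated false

namespace Vale.Agent.Lib.P063

variable {n r : ℕ}

lemma nn_aux (z A Lr qr : ℝ) (hz : 2592 ≤ z) (hL0 : 0 ≤ Lr) (hLz : Lr ≤ 3 * z)
    (hA : 108 * z ^ 3 ≤ A) (hq : qr - 1 ≤ A) (hq1 : 0 ≤ qr - 1) :
    2 * Lr ^ 2 * (qr - 1) ≤ A * A - 1 := by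
  have h3 : Lr ^ 2 ≤ (3 * z) ^ 2 := pow_le_pow_left₀ hL0 hLz 2
  have hzz : 1 ≤ z ^ 2 := one_le_pow₀ (by linarith)
  have h5 : 19 * z ^ 2 ≤ 108 * z ^ 3 := by
    have e0 : 108 * z ^ 3 = (108 * z) * z ^ 2 := by ring
    rw [e0]
    exact mul_le_mul_of_nonneg_right (by linarith) (by positivity)
  have h4 : 18 * z ^ 2 + 1 ≤ A := by linarith
  have hA1 : 1 ≤ A := by
    have : 0 ≤ z ^ 2 := by positivity
    linarith
  have h7 : 2 * Lr ^ 2 ≤ 18 * z ^ 2 := by
    have e0 : (3 * z) ^ 2 = 9 * z ^ 2 := by ring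
    rw [e0] at h3
    linarith
  have h6 : 2 * Lr ^ 2 * (qr - 1) ≤ 18 * z ^ 2 * A :=
    mul_le_mul h7 hq hq1 (by positivity)
  have h8 : (18 * z ^ 2 + 1) * A ≤ A * A := mul_le_mul_of_nonneg_right h4 (by linarith)
  have e1 : (18 * z ^ 2 + 1) * A = 18 * z ^ 2 * A + A := by ring
  linarith

/-- The derivative lower bound at a single `p`. -/
theorem totalInf_lower {p : ℝ} (hp : 0 < p) (hp1 : p < 1) (f : (Edge n r → Bool) → ℝ)
    (hf : ∀ x, f x = 0 ∨ f x = 1) (hinv : ∀ (σ : Equiv.Perm (Fin n)) x, f (x ∘ relabel σ) = f x)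
    (hr : 2 ≤ r) (hy : 32000 ≤ Real.log n) :
    (∑ S ∈ univ.filter (fun S : Finset (Edge n r) => S ≠ ∅), coef p f S ^ 2) *
        ((Real.log n) ^ ((r : ℝ) / ((r : ℝ) - 1)) / (3584 * r)) ≤
      totalInf p f / (p * (1 - p)) := by
  set y := Real.log n with hydef
  set V := ∑ S ∈ univ.filter (fun S : Finset (Edge n r) => S ≠ ∅), coef p f S ^ 2 with hV
  set K := totalInf p f with hK
  have hV0 : 0 ≤ V := sum_nonneg fun _ _ => sq_nonneg _
  have hVK : V ≤ K := var_le_totalInf p f
  have hK0 : 0 ≤ K := hV0.trans hVK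
  have hq : 0 < 1 - p := by linarith
  set Pi := p * (1 - p) with hPi
  have hPi0 : 0 < Pi := mul_pos hp hq
  set C := bC p with hC
  have hC28 : 28 ≤ C := bC_ge hp hp1
  have hCPi : C * Pi = 7 := by
    rw [hC, hPi]
    unfold bC
    field_simp
  set ell := Real.log C with hell
  have hCexp : Real.exp ell = C := Real.exp_log (by linarith)
  have hell1 : 1 ≤ ell := by
    rw [hell, Real.le_log_iff_exp_le (by linarith)]
    have := Real.exp_one_lt_d9
    linarith
  have hr1 : (1 : ℝ) < r := by exact_mod_cast (by omega : 1 < r)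
  have hr2 : (2 : ℝ) ≤ r := by exact_mod_cast hr
  set e : ℝ := (r : ℝ) / ((r : ℝ) - 1) with he
  have he2 : e ≤ 2 := by
    rw [he, div_le_iff₀ (by linarith)]
    linarith
  have he0 : 0 ≤ e := div_nonneg (by linarith) (by linarith)
  have hy1 : 1 ≤ y := by linarith
  have hye : y ^ e ≤ y ^ 2 := by
    have := Real.rpow_le_rpow_of_exponent_le hy1 he2
    simpa using this
  have hye0 : 0 ≤ y ^ e := Real.rpow_nonneg (by linarith) _
  have hr0 : (0 : ℝ) < 3584 * r := by positivity
  by_cases hcase : y < 4 * ell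
  · -- small `p`: the trivial bound
    have h1 : Real.exp (y / 4) < C := by
      rw [← hCexp]
      exact Real.exp_lt_exp.mpr (by linarith)
    have h2 : (y / 4) ^ 2 / 2 ≤ Real.exp (y / 4) := by
      have := Real.pow_div_factorial_le_exp (x := y / 4) (by linarith) 2
      simpa using this
    have h3 : y ^ 2 ≤ 32 * C := by
      have e0 : (y / 4) ^ 2 / 2 = y ^ 2 / 32 := by ring
      rw [e0] at h2
      linarith
    have h4 : y ^ e * Pi ≤ 224 := by
      have h5 : y ^ 2 * Pi ≤ 32 * C * Pi := mul_le_mul_of_nonneg_right h3 hPi0.le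
      have h6 : y ^ e * Pi ≤ y ^ 2 * Pi := mul_le_mul_of_nonneg_right hye hPi0.le
      have e0 : 32 * C * Pi = 224 := by
        rw [mul_assoc, hCPi]
        norm_num
      linarith
    have h7 : y ^ e / (3584 * r) ≤ 1 / Pi := by
      rw [div_le_div_iff₀ hr0 hPi0]
      linarith
    calc V * (y ^ e / (3584 * r)) ≤ K * (1 / Pi) :=
          mul_le_mul hVK h7 (by positivity) hK0
      _ = K / Pi := by ring
  · -- the main case
    have hcase' : 4 * ell ≤ y := not_lt.mp hcase
    have hell0 : 0 < ell := by linarith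
    set x := y / (4 * ell) with hx
    have hx1 : 1 ≤ x := by
      rw [hx, le_div_iff₀ (by linarith)]
      linarith
    set L := ⌊x⌋₊ with hL
    have hL1 : 1 ≤ L := Nat.le_floor (by simpa using hx1)
    have hLx : (L : ℝ) ≤ x := Nat.floor_le (by linarith)
    have hxL : x < L + 1 := Nat.lt_floor_add_one x
    have hL1r : (1 : ℝ) ≤ L := by exact_mod_cast hL1
    have hxell : x * ell = y / 4 := by
      rw [hx]
      field_simp
    have hLy : (L : ℝ) ≤ y / 4 := by
      have h1 : x ≤ y / 4 := by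
        rw [← hxell]
        exact le_mul_of_one_le_right (by linarith) hell1
      linarith
    set z := y / 12 with hz
    have hz1 : 2592 ≤ z := by rw [hz]; linarith
    have hLz : (L : ℝ) ≤ 3 * z := by rw [hz]; linarith
    have hezz : 108 * z ^ 3 ≤ Real.exp z := by
      have h1 := Real.pow_div_factorial_le_exp (x := z) (by linarith) 4
      have h2 : (Nat.factorial 4 : ℝ) = 24 := by norm_num [Nat.factorial]
      rw [h2] at h1
      have h3 : 108 * z ^ 3 ≤ z ^ 4 / 24 := by
        have h5 : (108 : ℝ) ≤ z / 24 := by linarith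
        have h6 : 108 * z ^ 3 ≤ z / 24 * z ^ 3 :=
          mul_le_mul_of_nonneg_right h5 (pow_nonneg (by linarith) 3)
        have e0 : z / 24 * z ^ 3 = z ^ 4 / 24 := by ring
        linarith
      linarith
    have hCL : C ^ L ≤ Real.exp (y / 4) := by
      rw [← hCexp, ← Real.exp_nat_mul]
      apply Real.exp_le_exp.mpr
      rw [← hxell]
      exact mul_le_mul_of_nonneg_right hLx hell0.le
    set A := Real.exp (y / 2) with hA
    have hA1 : 1 ≤ A := Real.one_le_exp (by linarith)
    set q := ⌈A⌉₊ with hq'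
    have hq1 : A ≤ q := Nat.le_ceil A
    have hq2 : (q : ℝ) < A + 1 := Nat.ceil_lt_add_one (by linarith)
    have hq0 : 1 ≤ q := by
      have : (0 : ℝ) < q := by linarith
      exact_mod_cast this
    set t := Real.exp (-z) with ht
    have ht0 : 0 < t := Real.exp_pos _
    have ht3 : t ^ 3 * A = Real.exp (y / 4) := by
      rw [ht, hA, ← Real.exp_nat_mul, ← Real.exp_add]
      congr 1
      rw [hz]
      push_cast
      ring
    have htq : C ^ L ≤ t ^ 3 * q :=
      hCL.trans (by
        rw [← ht3]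
        exact mul_le_mul_of_nonneg_left hq1 (by positivity))
    have hn0 : (n : ℝ) ≠ 0 := by
      intro h
      have : y = 0 := by rw [hydef, h, Real.log_zero]
      linarith
    have hnexp : (n : ℝ) = Real.exp y := (Real.exp_log (lt_of_le_of_ne (Nat.cast_nonneg n) (Ne.symm hn0))).symm
    have hAA : Real.exp y = A * A := by
      rw [hA, ← Real.exp_add]
      congr 1
      ring
    have hAz : Real.exp z ≤ A := by
      apply Real.exp_le_exp.mpr
      rw [hz]
      linarith
    have hn1 : 1 ≤ n := by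
      have : (n : ℝ) ≠ 0 := hn0
      have h2 : n ≠ 0 := fun h => this (by simp [h])
      omega
    have hnn : 2 * L ^ 2 * (q - 1) ≤ n - 1 := by
      have h1 : ((2 * L ^ 2 * (q - 1) : ℕ) : ℝ) ≤ ((n - 1 : ℕ) : ℝ) := by
        have e1 : ((2 * L ^ 2 * (q - 1) : ℕ) : ℝ) = 2 * (L : ℝ) ^ 2 * ((q : ℝ) - 1) := by
          rw [Nat.cast_mul, Nat.cast_mul, Nat.cast_pow, Nat.cast_sub hq0]
          norm_num
        have e2 : ((n - 1 : ℕ) : ℝ) = (n : ℝ) - 1 := by
          rw [Nat.cast_sub hn1]
          norm_num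
        rw [e1, e2, hnexp, hAA]
        have hq0r : (1 : ℝ) ≤ q := by exact_mod_cast hq0
        exact nn_aux z A L q hz1 (Nat.cast_nonneg L) hLz (hezz.trans hAz) (by linarith) (by linarith)
      exact_mod_cast h1
    have hsb := spectral_bound hp hp1 f hf hinv hr L q hL1 hq0 hnn t ht0.le htq
    have hK' : ∑ S : Finset (Edge n r), (S.card : ℝ) * coef p f S ^ 2 = K := rfl
    rw [hK'] at hsb
    set Lam := (L : ℝ) ^ e with hLam
    have hLam0 : 0 < Lam := Real.rpow_pos_of_pos (by linarith) _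
    have hLam2 : Lam ≤ (L : ℝ) ^ 2 := by
      have := Real.rpow_le_rpow_of_exponent_le hL1r he2
      simpa using this
    have h4tL : 4 * t * L ≤ 1 / Lam := by
      rw [le_div_iff₀ hLam0]
      have h1 : 4 * (L : ℝ) ^ 3 ≤ Real.exp z := by
        have h2 : (L : ℝ) ^ 3 ≤ (3 * z) ^ 3 := pow_le_pow_left₀ (by linarith) hLz 3
        have e0 : (3 * z) ^ 3 = 27 * z ^ 3 := by ring
        rw [e0] at h2
        linarith
      have h3 : t * Real.exp z = 1 := by
        rw [ht, ← Real.exp_add]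
        simp
      calc 4 * t * L * Lam ≤ 4 * t * L * (L : ℝ) ^ 2 :=
            mul_le_mul_of_nonneg_left hLam2 (by positivity)
        _ = t * (4 * (L : ℝ) ^ 3) := by ring
        _ ≤ t * Real.exp z := mul_le_mul_of_nonneg_left h1 ht0.le
        _ = 1 := h3
    have hfinal : V ≤ 2 * r / Lam * K := by
      refine hsb.trans (mul_le_mul_of_nonneg_right ?_ hK0)
      have h1 : 4 * t * L * r ≤ 1 / Lam * r :=
        mul_le_mul_of_nonneg_right h4tL (by linarith)
      calc 4 * t * L * r + r / Lam ≤ 1 / Lam * r + r / Lam := by linarith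
        _ = 2 * r / Lam := by ring
    have hVL : V * Lam ≤ 2 * r * K := by
      have := mul_le_mul_of_nonneg_right hfinal hLam0.le
      calc V * Lam ≤ 2 * r / Lam * K * Lam := this
        _ = 2 * r * K := by field_simp
    -- comparison of `y ^ e` with `Lam`
    have hy8 : y ≤ (8 * ell) * L := by
      have h1 : x ≤ 2 * L := by linarith
      have h2 : y = x * (4 * ell) := by
        rw [hx]
        field_simp
      rw [h2]
      have h3 : x * (4 * ell) ≤ (2 * L) * (4 * ell) :=
        mul_le_mul_of_nonneg_right h1 (by linarith)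
      have e0 : (2 * (L : ℝ)) * (4 * ell) = 8 * ell * L := by ring
      linarith
    have hy0 : 0 ≤ y := by linarith
    have hey : y ^ e ≤ (8 * ell) ^ 2 * Lam := by
      have h1 : y ^ e ≤ ((8 * ell) * L) ^ e := Real.rpow_le_rpow hy0 hy8 he0
      have h2 : ((8 * ell) * (L : ℝ)) ^ e = (8 * ell) ^ e * Lam :=
        Real.mul_rpow (by linarith) (by linarith)
      have h3 : (8 * ell) ^ e ≤ (8 * ell) ^ 2 := by
        have := Real.rpow_le_rpow_of_exponent_le (by linarith : (1 : ℝ) ≤ 8 * ell) he2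
        simpa using this
      calc y ^ e ≤ (8 * ell) ^ e * Lam := by rw [← h2]; exact h1
        _ ≤ _ := mul_le_mul_of_nonneg_right h3 hLam0.le
    have hellPi : ell ^ 2 * Pi ≤ 14 := by
      have h1 := Real.pow_div_factorial_le_exp (x := ell) (by linarith) 2
      rw [hCexp] at h1
      have h2 : (Nat.factorial 2 : ℝ) = 2 := by norm_num [Nat.factorial]
      rw [h2] at h1
      have h3 : ell ^ 2 ≤ 2 * C := by linarith
      have h4 := mul_le_mul_of_nonneg_right h3 hPi0.le
      have e0 : 2 * C * Pi = 14 := by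
        rw [mul_assoc, hCPi]
        norm_num
      linarith
    have hyPi : y ^ e * Pi ≤ 896 * Lam := by
      have h1 : y ^ e * Pi ≤ (8 * ell) ^ 2 * Lam * Pi := mul_le_mul_of_nonneg_right hey hPi0.le
      have h2 : (8 * ell) ^ 2 * Lam * Pi = 64 * (ell ^ 2 * Pi) * Lam := by ring
      have h3 : 64 * (ell ^ 2 * Pi) * Lam ≤ 64 * 14 * Lam :=
        mul_le_mul_of_nonneg_right (by linarith) hLam0.le
      linarith
    rw [le_div_iff₀ hPi0]
    have h5 : V * (y ^ e * Pi) ≤ V * (896 * Lam) := mul_le_mul_of_nonneg_left hyPi hV0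
    have h6 : V * (y ^ e / (3584 * r)) * Pi = V * (y ^ e * Pi) / (3584 * r) := by
      field_simp
    rw [h6, div_le_iff₀ hr0]
    have h7 : (0 : ℝ) ≤ r := by linarith
    calc V * (y ^ e * Pi) ≤ V * (896 * Lam) := h5
      _ = 448 * (2 * (V * Lam)) := by ring
      _ ≤ 448 * (2 * (2 * r * K)) := by
          apply mul_le_mul_of_nonneg_left _ (by norm_num)
          linarith
      _ = 1792 * (r * K) := by ring
      _ ≤ K * (3584 * r) := by
          have e0 : K * (3584 * r) = 3584 * (r * K) := by ring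
          rw [e0]
          have h8 := mul_nonneg h7 hK0
          linarith

/-- The indicator of a family, as a real function. -/
noncomputable def indR (P : Set (Edge n r → Bool)) (x : Edge n r → Bool) : ℝ :=
  P.indicator (fun _ => (1 : ℝ)) x

lemma indR_bool (P : Set (Edge n r → Bool)) (x : Edge n r → Bool) :
    indR P x = 0 ∨ indR P x = 1 := by
  unfold indR
  by_cases h : x ∈ P
  · right
    exact Set.indicator_of_mem h _
  · left
    exact Set.indicator_of_notMem h _

lemma ex_indR (p : ℝ) (P : Set (Edge n r → Bool)) : ex p (indR P) = muP p P := by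
  unfold ex muP indR wt w1
  refine sum_congr rfl fun x _ => ?_
  by_cases h : x ∈ P
  · rw [Set.indicator_of_mem h, Set.indicator_of_mem h, mul_one]
  · rw [Set.indicator_of_notMem h, Set.indicator_of_notMem h, mul_zero]

lemma ex_one_eval (f : (Edge n r → Bool) → ℝ) : ex (1 : ℝ) f = f (fun _ => true) := by
  unfold ex
  rw [Finset.sum_eq_single (fun _ => true)]
  · have : wt (1 : ℝ) (fun _ : Edge n r => true) = 1 := by
      simp [wt, w1]
    rw [this, one_mul]
  · intro x _ hx
    have : ∃ e, x e ≠ true := by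
      by_contra h
      push Not at h
      exact hx (funext h)
    obtain ⟨e, he⟩ := this
    have h0 : wt (1 : ℝ) x = 0 := by
      refine Finset.prod_eq_zero (mem_univ e) ?_
      simp [w1, he]
    rw [h0, zero_mul]
  · intro h
    exact absurd (mem_univ _) h

/-- The width bound for large `n`. -/
theorem width_large (hr : 2 ≤ r) {ε : ℝ} (h0 : 0 < ε) (h1 : ε < 1 / 2)
    (P : Set (Edge n r → Bool)) (hP : IsHypergraphProperty P) (hI : IsIncreasing P)
    (hN : IsNontrivial P) (hy : 32000 ≤ Real.log n) :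
    width ε P ≤ (3584 * r / (ε * (1 - ε))) * (Real.log n) ^ (-((r : ℝ) / ((r : ℝ) - 1))) := by
  classical
  set y := Real.log n with hydef
  set e : ℝ := (r : ℝ) / ((r : ℝ) - 1) with he
  have hy0 : 0 < y := by linarith
  have hye : 0 < y ^ e := Real.rpow_pos_of_pos hy0 _
  have hr2 : (2 : ℝ) ≤ r := by exact_mod_cast hr
  have hε1 : 0 < 1 - ε := by linarith
  have hεε : 0 < ε * (1 - ε) := mul_pos h0 hε1
  set f : (Edge n r → Bool) → ℝ := indR P with hf
  have hfb : ∀ x, f x = 0 ∨ f x = 1 := indR_bool P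
  have hf0 : ∀ x, 0 ≤ f x := fun x => by rcases hfb x with h | h <;> rw [h] <;> norm_num
  have hf1 : ∀ x, f x ≤ 1 := fun x => by rcases hfb x with h | h <;> rw [h] <;> norm_num
  have hinv : ∀ (σ : Equiv.Perm (Fin n)) x, f (x ∘ relabel σ) = f x := by
    intro σ x
    simp only [hf, indR]
    by_cases h : x ∈ P
    · rw [Set.indicator_of_mem h, Set.indicator_of_mem ((hP σ x).mpr h)]
    · rw [Set.indicator_of_notMem h, Set.indicator_of_notMem (fun h2 => h ((hP σ x).mp h2))]
  have hmono : ∀ x y : Edge n r → Bool, (∀ i, x i = true → y i = true) → f x ≤ f y := by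
    intro x y hxy
    simp only [hf, indR]
    by_cases h : x ∈ P
    · rw [Set.indicator_of_mem h, Set.indicator_of_mem (hI x y hxy h)]
    · rw [Set.indicator_of_notMem h]
      exact Set.indicator_nonneg (fun _ _ => by norm_num) _
  set mu : ℝ → ℝ := fun q => ex q f with hmu
  have hmuP : ∀ q, muP q P = mu q := fun q => (ex_indR q P).symm
  have hcont : Continuous mu := continuous_ex f
  have hder : ∀ p ∈ Set.Ioo (0 : ℝ) 1, HasDerivAt mu (totalInf p f / (p * (1 - p))) p :=
    fun p hp => hasDerivAt_ex_mono hp.1 hp.2 f hfb hmono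
  have hder0 : ∀ p ∈ Set.Ioo (0 : ℝ) 1, 0 ≤ deriv mu p := by
    intro p hp
    rw [(hder p hp).deriv]
    refine div_nonneg ?_ (mul_pos hp.1 (by linarith [hp.2])).le
    exact sum_nonneg fun S _ => mul_nonneg (Nat.cast_nonneg _) (sq_nonneg _)
  have hmonoOn : MonotoneOn mu (Set.Icc 0 1) := by
    refine monotoneOn_of_deriv_nonneg (convex_Icc 0 1) hcont.continuousOn ?_ ?_
    · rw [interior_Icc]
      exact fun p hp => (hder p hp).differentiableAt.differentiableWithinAt
    · rw [interior_Icc]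
      exact hder0
  have hmu01 : ∀ q ∈ Set.Icc (0 : ℝ) 1, 0 ≤ mu q ∧ mu q ≤ 1 :=
    fun q hq => ex_bounds hq.1 hq.2 f hf0 hf1
  -- the value at one
  have hmu1 : mu 1 = 1 := by
    obtain ⟨x0, hx0⟩ := hN.1
    have h2 : (fun _ => true : Edge n r → Bool) ∈ P :=
      hI x0 _ (fun _ _ => rfl) hx0
    simp only [hmu]
    rw [ex_one_eval]
    simp only [hf, indR]
    exact Set.indicator_of_mem h2 _
  -- the level sets
  have hSne : ∀ a : ℝ, a ≤ 1 → ({q : ℝ | q ∈ Set.Icc (0 : ℝ) 1 ∧ a ≤ muP q P}).Nonempty := by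
    intro a ha
    refine ⟨1, ⟨by norm_num, by norm_num⟩, ?_⟩
    rw [hmuP, hmu1]
    exact ha
  have hSbdd : ∀ a : ℝ, BddBelow {q : ℝ | q ∈ Set.Icc (0 : ℝ) 1 ∧ a ≤ muP q P} :=
    fun a => ⟨0, fun q hq => hq.1.1⟩
  set al := pLevel ε P with hal
  set be := pLevel (1 - ε) P with hbe
  have hw : width ε P = be - al := rfl
  have hal0 : 0 ≤ al := le_csInf (hSne ε (by linarith)) (fun q hq => hq.1.1)
  have hbe1 : be ≤ 1 := by
    refine csInf_le (hSbdd _) ⟨⟨by norm_num, by norm_num⟩, ?_⟩
    rw [hmuP, hmu1]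
    linarith
  rw [hw]
  have hrpow : y ^ (-e) = 1 / y ^ e := by
    rw [Real.rpow_neg hy0.le, one_div]
  set cc : ℝ := ε * (1 - ε) * (y ^ e / (3584 * r)) with hcc
  have hr0 : (0 : ℝ) < 3584 * r := by positivity
  have hcc0 : 0 < cc := by positivity
  by_cases hab : be ≤ al
  · have : 0 ≤ (3584 * r / (ε * (1 - ε))) * y ^ (-e) := by
      rw [hrpow]
      positivity
    linarith
  · have hab' : al < be := not_le.mp hab
    have hin : ∀ p ∈ Set.Ioo al be, cc ≤ deriv mu p := by
      intro p hp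
      have hp01 : p ∈ Set.Ioo (0 : ℝ) 1 := ⟨by linarith [hp.1], by linarith [hp.2]⟩
      have hpI : p ∈ Set.Icc (0 : ℝ) 1 := ⟨hp01.1.le, hp01.2.le⟩
      -- upper bound of `mu p`
      have hup : mu p ≤ 1 - ε := by
        have h2 : p ∉ {q : ℝ | q ∈ Set.Icc (0 : ℝ) 1 ∧ 1 - ε ≤ muP q P} :=
          notMem_of_lt_csInf hp.2 (hSbdd _)
        by_contra h3
        apply h2
        refine ⟨hpI, ?_⟩
        rw [hmuP]
        linarith [not_le.mp h3]
      -- lower bound of `mu p`
      have hlow : ε ≤ mu p := by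
        obtain ⟨q, hq1, hq2⟩ := exists_lt_of_csInf_lt (hSne ε (by linarith)) hp.1
        have h3 := hmonoOn hq1.1 hpI hq2.le
        have h4 := hq1.2
        rw [hmuP] at h4
        linarith
      rw [(hder p hp01).deriv]
      have h5 := totalInf_lower hp01.1 hp01.2 f hfb hinv hr hy
      rw [var_eq hp01.1 hp01.2 f hfb] at h5
      refine le_trans ?_ h5
      refine mul_le_mul_of_nonneg_right ?_ (by positivity)
      have h6 : mu p = ex p f := rfl
      rw [← h6]
      nlinarith
    have hmvt := Convex.mul_sub_le_image_sub_of_le_deriv (convex_Icc al be) hcont.continuousOn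
      (by
        rw [interior_Icc]
        intro p hp
        have hp01 : p ∈ Set.Ioo (0 : ℝ) 1 := ⟨by linarith [hp.1], by linarith [hp.2]⟩
        exact (hder p hp01).differentiableAt.differentiableWithinAt)
      (by
        rw [interior_Icc]
        exact hin)
      al ⟨le_rfl, hab'.le⟩ be ⟨hab'.le, le_rfl⟩ hab'.le
    have h7 := hmu01 be ⟨by linarith, hbe1⟩
    have h8 := hmu01 al ⟨hal0, by linarith⟩
    have h9 : cc * (be - al) ≤ 1 := by linarith [h7.2, h8.1]
    rw [hrpow]
    have h10 : (3584 * r / (ε * (1 - ε))) * (1 / y ^ e) = 1 / cc := by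
      rw [hcc]
      field_simp
    rw [h10, le_div_iff₀ hcc0]
    linarith

/-- The main theorem. -/
theorem width_main (r : ℕ) (hr : 2 ≤ r) (ε : ℝ) (h0 : 0 < ε) (h1 : ε < 1 / 2) :
    ∃ C : ℝ, ∀ (n : ℕ), r ≤ n → ∀ P : Set (Edge n r → Bool), IsHypergraphProperty P →
      IsIncreasing P → IsNontrivial P →
      width ε P ≤ C * (Real.log n) ^ (-((r : ℝ) / ((r : ℝ) - 1))) := by
  have hε1 : 0 < 1 - ε := by linarith
  have hεε : 0 < ε * (1 - ε) := mul_pos h0 hε1
  have hr2 : (2 : ℝ) ≤ r := by exact_mod_cast hr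
  set D : ℝ := 3584 * r / (ε * (1 - ε)) with hD
  have hD0 : 0 ≤ D := by positivity
  refine ⟨D + 32000 ^ 2, fun n hn P hP hI hN => ?_⟩
  have hn2 : (2 : ℝ) ≤ n := by exact_mod_cast hr.trans hn
  set y := Real.log n with hydef
  have hy0 : 0 < y := Real.log_pos (by linarith)
  set e : ℝ := (r : ℝ) / ((r : ℝ) - 1) with he
  have hyne : 0 ≤ y ^ (-e) := Real.rpow_nonneg hy0.le _
  by_cases hy : 32000 ≤ y
  · have h2 := width_large hr h0 h1 P hP hI hN hy
    calc width ε P ≤ D * y ^ (-e) := h2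
      _ ≤ (D + 32000 ^ 2) * y ^ (-e) :=
          mul_le_mul_of_nonneg_right (by nlinarith) hyne
  · have hy' : y < 32000 := not_le.mp hy
    -- a crude bound
    have he2 : e ≤ 2 := by
      rw [he, div_le_iff₀ (by linarith)]
      linarith
    have he0 : 0 ≤ e := div_nonneg (by linarith) (by linarith)
    have hye : y ^ e ≤ 32000 ^ 2 := by
      have h3 : y ^ e ≤ (32000 : ℝ) ^ e := Real.rpow_le_rpow hy0.le hy'.le he0
      have h4 : (32000 : ℝ) ^ e ≤ (32000 : ℝ) ^ (2 : ℝ) :=
        Real.rpow_le_rpow_of_exponent_le (by norm_num) he2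
      have h5 : (32000 : ℝ) ^ (2 : ℝ) = 32000 ^ 2 := by
        simpa using Real.rpow_natCast (32000 : ℝ) 2
      linarith
    have hye0 : 0 < y ^ e := Real.rpow_pos_of_pos hy0 _
    have h6 : (1 : ℝ) ≤ (D + 32000 ^ 2) * y ^ (-e) := by
      rw [Real.rpow_neg hy0.le, ← div_eq_mul_inv, le_div_iff₀ hye0]
      linarith
    -- the width is at most one
    have hw : width ε P ≤ 1 := by
      unfold width pLevel
      have hSbdd : ∀ a : ℝ, ∀ q ∈ {q : ℝ | q ∈ Set.Icc (0 : ℝ) 1 ∧ a ≤ muP q P}, 0 ≤ q :=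
        fun a q hq => hq.1.1
      have h7 : 0 ≤ sInf {q : ℝ | q ∈ Set.Icc (0 : ℝ) 1 ∧ ε ≤ muP q P} :=
        Real.sInf_nonneg (hSbdd ε)
      have h8 : sInf {q : ℝ | q ∈ Set.Icc (0 : ℝ) 1 ∧ 1 - ε ≤ muP q P} ≤ 1 := by
        by_cases h9 : ({q : ℝ | q ∈ Set.Icc (0 : ℝ) 1 ∧ 1 - ε ≤ muP q P}).Nonempty
        · obtain ⟨q0, hq0⟩ := h9
          exact (csInf_le ⟨0, hSbdd _⟩ hq0).trans hq0.1.2
        · rw [Set.not_nonempty_iff_eq_empty.mp h9, Real.sInf_empty]
          norm_num
      linarith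
    linarith

end Vale.Agent.Lib.P063
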